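import Vale.Agent.P004G.LIface

/-!
# P004G: the CM families `y² = x³ - B x` and `y² = x³ + B` (frozen statements)
-/

open Real MeasureTheory Set
open scoped ENNReal

namespace P004G

/-- `p` minus the number of affine points of `y² = x³ - B x` over `F_p` -/
noncomputable def trQ (B : ℤ) (p : ℕ) : ℤ :=
  p - Nat.card {q : ZMod p × ZMod p // q.2 ^ 2 = q.1 ^ 3 - (B : ZMod p) * q.1}

/-- `p` minus the number of affine points of `y² = x³ + B` over `F_p` -/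
noncomputable def trS (B : ℤ) (p : ℕ) : ℤ :=
  p - Nat.card {q : ZMod p × ZMod p // q.2 ^ 2 = q.1 ^ 3 + (B : ZMod p)}

/-- `B` without its `p`-part -/
noncomputable def cop (B : ℤ) (p : ℕ) : ℤ := B / (p : ℤ) ^ padicValInt p B

/-- the good recursion at `p` -/
def GoodAt (A : ℕ → ℤ) (p : ℕ) : Prop :=
  ∀ k : ℕ, A (p ^ (k + 2)) = A p * A (p ^ (k + 1)) - p * A (p ^ k)

/-- the Euler factor at `p` is trivial -/
def TrivAt (A : ℕ → ℤ) (p : ℕ) : Prop := ∀ k : ℕ, A (p ^ (k + 1)) = 0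

/-- the product of the odd primes of bad reduction of `y² = x³ - B x` -/
noncomputable def RQ (B : ℤ) : ℕ :=
  ∏ p ∈ B.natAbs.primeFactors, if p ≠ 2 ∧ ¬ 4 ∣ padicValInt p B then p else 1

/-- the product of the primes `≥ 5` of bad reduction of `y² = x³ + B` -/
noncomputable def RS (B : ℤ) : ℕ :=
  ∏ p ∈ B.natAbs.primeFactors, if 5 ≤ p ∧ ¬ 6 ∣ padicValInt p B then p else 1

/-- `A` is the sequence of Dirichlet coefficients of `y² = x³ - B x`: additive reduction at `2` and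
at the odd `p` with `4 ∤ v_p(B)`, good reduction elsewhere -/
structure CoefQ (B : ℤ) (A : ℕ → ℤ) : Prop where
  ld : LD A
  two : TrivAt A 2
  bad : ∀ p : ℕ, p.Prime → p ≠ 2 → ¬ 4 ∣ padicValInt p B → TrivAt A p
  good : ∀ p : ℕ, p.Prime → p ≠ 2 → 4 ∣ padicValInt p B → GoodAt A p ∧ A p = trQ (cop B p) p

/-- `A` is the sequence of Dirichlet coefficients of `y² = x³ + B`: additive reduction at `3` and
at the `p ≥ 5` with `6 ∤ v_p(B)`, good reduction at the other `p ≥ 5`; at `2` good (with `a_2 = 0`)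
iff `v_2(B) ≡ 4 mod 6` and the odd part of `B` is `≡ 1 mod 4` -/
structure CoefS (B : ℤ) (A : ℕ → ℤ) : Prop where
  ld : LD A
  three : TrivAt A 3
  bad : ∀ p : ℕ, p.Prime → 5 ≤ p → ¬ 6 ∣ padicValInt p B → TrivAt A p
  good : ∀ p : ℕ, p.Prime → 5 ≤ p → 6 ∣ padicValInt p B → GoodAt A p ∧ A p = trS (cop B p) p
  two_bad : ¬ (padicValInt 2 B % 6 = 4 ∧ cop B 2 % 4 = 1) → TrivAt A 2
  two_good : (padicValInt 2 B % 6 = 4 ∧ cop B 2 % 4 = 1) → GoodAt A 2 ∧ A 2 = 0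

/-- Package Q : functional equation for every `y² = x³ - B x`. -/
def StQ : Prop :=
  ∃ C : ℝ, 1 ≤ C ∧ ∀ B : ℤ, B ≠ 0 → ∃ (A : ℕ → ℤ) (q κ : ℝ), CoefQ B A ∧ FEq A q κ ∧
    (RQ B : ℝ) / C ≤ √q ∧ √q ≤ C * (RQ B : ℝ)

/-- Package S : functional equation for every `y² = x³ + B`. -/
def StS : Prop :=
  ∃ C : ℝ, 1 ≤ C ∧ ∀ B : ℤ, B ≠ 0 → ∃ (A : ℕ → ℤ) (q κ : ℝ), CoefS B A ∧ FEq A q κ ∧
    (RS B : ℝ) / C ≤ √q ∧ √q ≤ C * (RS B : ℝ)

end P004G
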