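import Vale.Agent.P004G.Iface
import Vale.Agent.P004.H1a

/-!
# P004G, module H1, part a: elementary facts about the weights
-/

open Real MeasureTheory Set

namespace P004G.H1

export P004.H1 (abs_chi_le chi_mul dv_le dv_nonneg ah integrable_pow_exp integrable_ah ah_nonneg
  exp_neg_le ah_le summable_ah c0 c0_pos c0_le integral_eq_tsum)

theorem ah_neg (H : ℝ) (h : ℤ) : ah H (-h) = ah H h := by
  unfold P004.H1.ah
  push_cast
  simp only [neg_sq]

theorem ah_natAbs (H : ℝ) (h : ℤ) : ah H (h.natAbs : ℤ) = ah H h := by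
  rcases Int.natAbs_eq h with h1 | h1
  · rw [← h1]
  · conv_rhs => rw [h1]
    rw [ah_neg]

theorem c0_le_int {H : ℝ} (hH : 0 < H) {m : ℤ} (hm : |(m : ℝ)| ≤ H) : c0 ≤ ah H m := by
  rw [← ah_natAbs]
  refine c0_le hH ?_
  rw [Nat.cast_natAbs]
  push_cast
  exact hm

variable [Crv]

/-- the weight `1_{n squarefree, (n,r)=1} a_n e^{-π n u}` -/
noncomputable def wt (r : ℕ) (u : ℝ) (n : ℕ) : ℝ :=
  if Squarefree n ∧ n.Coprime r then (ca n : ℝ) * Real.exp (-π * n * u) else 0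

theorem Uf_eq (h : ℤ) (r : ℕ) (u : ℝ) : Uf h r u = ∑' n, wt r u n * chi h n := by
  unfold Uf
  refine tsum_congr fun n => ?_
  unfold wt
  split_ifs <;> ring

theorem abs_ca_le (hC : StCoef) (n : ℕ) : |(ca n : ℝ)| ≤ (n : ℝ) ^ 2 := by
  refine (hC.bound n).trans ?_
  rcases Nat.eq_zero_or_pos n with rfl | hn
  · simp
  have h1 : (1 : ℝ) ≤ n := by exact_mod_cast hn
  have h2 : √(n : ℝ) ≤ n := by
    rw [Real.sqrt_le_left (by positivity)]
    nlinarith
  calc dv n * √(n : ℝ) ≤ n * n := mul_le_mul (dv_le n) h2 (by positivity) (by positivity)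
    _ = (n : ℝ) ^ 2 := by ring

theorem abs_wt_le (hC : StCoef) (r : ℕ) (u : ℝ) (n : ℕ) :
    |wt r u n| ≤ (n : ℝ) ^ 2 * Real.exp (-(π * u) * n) := by
  unfold wt
  split_ifs with h
  · rw [abs_mul, abs_of_pos (Real.exp_pos _)]
    have : -π * n * u = -(π * u) * n := by ring
    rw [this]
    exact mul_le_mul_of_nonneg_right (abs_ca_le hC n) (Real.exp_pos _).le
  · simp only [abs_zero]; positivity

theorem summable_wt (hC : StCoef) (r : ℕ) {u : ℝ} (hu : 0 < u) (k : ℕ) :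
    Summable fun n : ℕ => |wt r u n| * (n : ℝ) ^ k := by
  have h1 := Real.summable_pow_mul_exp_neg_nat_mul (k + 2) (r := π * u) (by positivity)
  refine Summable.of_nonneg_of_le (fun n => by positivity) (fun n => ?_) h1
  calc |wt r u n| * (n : ℝ) ^ k ≤ ((n : ℝ) ^ 2 * Real.exp (-(π * u) * n)) * (n : ℝ) ^ k :=
        mul_le_mul_of_nonneg_right (abs_wt_le hC r u n) (by positivity)
    _ = (n : ℝ) ^ (k + 2) * Real.exp (-(π * u) * n) := by ring

theorem wt_ne_zero {r : ℕ} {u : ℝ} {n : ℕ} (h : wt r u n ≠ 0) :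
    Squarefree n ∧ n.Coprime r ∧ ca n ≠ 0 := by
  unfold wt at h
  split_ifs at h with h1
  · refine ⟨h1.1, h1.2, ?_⟩
    intro h2
    simp [h2] at h
  · exact absurd rfl h

theorem odd_of_wt {r : ℕ} {u : ℝ} {n : ℕ} (h : wt r u n ≠ 0) : Odd n :=
  (Good.of_ca (wt_ne_zero h).2.2).odd

theorem good_of_wt {r : ℕ} {u : ℝ} {n : ℕ} (h : wt r u n ≠ 0) : Good n :=
  Good.of_ca (wt_ne_zero h).2.2

end P004G.H1
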