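import Vale.Agent.P004G.Iface

/-!
# P004G: Euler products of degree two with functional equation (frozen statements)

`A : ℕ → ℤ` is the full sequence of Dirichlet coefficients of one `L`-function (all primes).
-/

open Real MeasureTheory Set
open scoped ENNReal

namespace P004G

/-- The coefficients of an Euler product: at each `p` the factor is `(1 - a p^{-s} + p^{1-2s})⁻¹`
with `a² ≤ 4p` (good), or `(1 - a p^{-s})⁻¹` with `|a| ≤ 1`. -/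
structure LD (A : ℕ → ℤ) : Prop where
  zero : A 0 = 0
  one : A 1 = 1
  mul : ∀ m n : ℕ, m.Coprime n → A (m * n) = A m * A n
  loc : ∀ p : ℕ, p.Prime →
    ((∀ k : ℕ, A (p ^ (k + 2)) = A p * A (p ^ (k + 1)) - p * A (p ^ k)) ∧ (A p) ^ 2 ≤ 4 * p) ∨
    ((∀ k : ℕ, A (p ^ (k + 1)) = A p * A (p ^ k)) ∧ |A p| ≤ 1)

/-- `4 ∑ A n e^{-π n u}` -/
noncomputable def TH (A : ℕ → ℤ) (u : ℝ) : ℝ := 4 * ∑' n : ℕ, (A n : ℝ) * Real.exp (-π * n * u)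

/-- the functional equation with conductor parameter `q` (`= N / 4`) and root number `κ` -/
def FEq (A : ℕ → ℤ) (q κ : ℝ) : Prop :=
  0 < q ∧ (κ = 1 ∨ κ = -1) ∧ ∀ u : ℝ, 0 < u → TH A u = κ / (q * u ^ 2) * TH A (1 / (q * u))

/-- `L` is the entire continuation of `∑ A n n^{-s}` -/
def IsL (A : ℕ → ℤ) (L : ℂ → ℂ) : Prop :=
  Differentiable ℂ L ∧ ∀ s : ℂ, 3 / 2 < s.re → L s = ∑' n : ℕ, (A n : ℂ) / (n : ℂ) ^ s

/-- Module L1 : bound for the coefficients. -/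
def StLbound : Prop := ∀ A : ℕ → ℤ, LD A → ∀ n : ℕ, |(A n : ℝ)| ≤ dv n * √(n : ℝ)

open scoped Classical in
/-- Module L2 : Euler product. -/
def StLeuler : Prop := ∀ A : ℕ → ℤ, LD A → ∀ s : ℂ, 3 / 2 < s.re →
  HasProd (fun p : Nat.Primes =>
    if ∀ k : ℕ, A ((p : ℕ) ^ (k + 2)) = A p * A ((p : ℕ) ^ (k + 1)) - (p : ℕ) * A ((p : ℕ) ^ k)
    then (1 - (A p : ℂ) * (p : ℂ) ^ (-s) + (p : ℂ) ^ (1 - 2 * s))⁻¹
    else (1 - (A p : ℂ) * (p : ℂ) ^ (-s))⁻¹) (∑' n : ℕ, (A n : ℂ) / (n : ℂ) ^ s)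

/-- Module L3 : continuation and uniqueness. -/
def StLent : Prop := ∀ (A : ℕ → ℤ) (q κ : ℝ), LD A → FEq A q κ →
  ∃ L : ℂ → ℂ, IsL A L ∧ ∀ L', IsL A L' → L' = L

/-- Module L4 : the order of vanishing at `1` is finite and `≪ log(3 + q)`. -/
def StLrank : Prop := ∃ C : ℝ, 1 ≤ C ∧ ∀ (A : ℕ → ℤ) (q κ : ℝ) (L : ℂ → ℂ), LD A → FEq A q κ →
  IsL A L → analyticOrderAt L 1 ≠ ⊤ ∧ (analyticOrderNatAt L 1 : ℝ) ≤ C * Real.log (3 + q)

/-- Module L5 : parity. -/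
def StLparity : Prop := ∀ (A : ℕ → ℤ) (q κ : ℝ) (L : ℂ → ℂ), LD A → FEq A q κ → IsL A L →
  (κ = 1 ↔ Even (analyticOrderNatAt L 1))

variable [Crv]

/-- The data of the twists: for every squarefree `m` of either sign a degree two Euler product `A`
with coefficients `ca n (m/n)` for `(n, bd) = 1`, with functional equation, `q` comparable to
`m²`. -/
def StTF : Prop :=
  ∃ k₀ : ℕ, 1 ≤ k₀ ∧ ∀ m : ℤ, Squarefree m → ∃ (A : ℕ → ℤ) (q κ : ℝ), LD A ∧ FEq A q κ ∧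
    (∀ n : ℕ, n.Coprime bd → A n = ca n * jacobiSym m n) ∧
    |(m : ℝ)| / k₀ ≤ √q ∧ √q ≤ k₀ * |(m : ℝ)|

/-- Module Z3 : the order of vanishing. -/
def StVan1 : Prop :=
  ∀ (m : ℤ) (A : ℕ → ℤ) (q κ : ℝ) (L : ℂ → ℂ), LD A → FEq A q κ → IsL A L →
    (∀ n : ℕ, n.Coprime bd → A n = ca n * jacobiSym m n) → Van m (analyticOrderNatAt L 1)

/-- Module Z1 -/
def StZ1 : Prop := StTF → StFold

/-- Module Z2 -/
def StZ2 : Prop := StTF → StVan2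

end P004G
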