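import Vale.Agent.P004G.GArith

/-!
# P004, module G: `StConv`
-/

open Real Set MeasureTheory Filter
open scoped ENNReal Topology

namespace P004G

variable [Crv]

namespace G

/-! ### the weighted sum of `eF` -/

theorem dv_mono {a b : ℕ} (hb : b ≠ 0) (h : a ∣ b) : dv a ≤ dv b := by
  unfold dv
  exact_mod_cast Finset.card_le_card (Nat.divisors_subset_of_dvd hb h)

theorem one_le_dv {n : ℕ} (hn : n ≠ 0) : 1 ≤ dv n := by
  unfold dv
  exact_mod_cast Finset.card_pos.2 (Nat.nonempty_divisors.2 hn)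

/-- the weights -/
noncomputable def wt (θ : ℝ) (R k : ℕ) : ℝ≥0∞ :=
  ENNReal.ofReal (|eF R k| * (k : ℝ) ^ (-1 - 2 * θ))

theorem sum_wt (h : StCoef) (hD : StDiv) : ∃ C : ℝ, 0 < C ∧ ∃ A : ℕ, ∀ θ : ℝ, 0 < θ → θ ≤ 1 →
    ∀ R : ℕ, 0 < R →
    ∑' k : ℕ, wt θ R k ≤ ENNReal.ofReal (C * (1 / θ) ^ A * dv R ^ 6) := by
  obtain ⟨C, hC, A, hA⟩ := hD.2 2
  refine ⟨C, hC, A, fun θ h0 h1 R hR => ?_⟩
  classical
  have hR2 : R ^ 2 ≠ 0 := pow_ne_zero _ hR.ne'
  let s : Set ℕ := {k | eF R k ≠ 0}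
  have hs : Function.support (wt θ R) ⊆ s := by
    intro k hk
    simp only [Function.mem_support, wt] at hk
    intro h0
    apply hk
    rw [h0]; simp
  rw [← tsum_subtype_eq_of_support_subset hs]
  choose a b hab using fun k : s => eF_support R k.1 hR k.2
  let φ : s → ℕ × {r : ℕ // Powerful r} := fun k => (a k, ⟨b k, (hab k).2.1⟩)
  have hinj : Function.Injective φ := by
    intro k k' hk
    have e1 : a k = a k' := congrArg Prod.fst hk
    have e2 : b k = b k' := congrArg (fun x => (Prod.snd x).1) hk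
    apply Subtype.ext
    rw [(hab k).2.2, (hab k').2.2, e1, e2]
  let Gp : ℕ × {r : ℕ // Powerful r} → ℝ≥0∞ := fun p =>
    (if p.1 ∈ (R ^ 2).divisors then ENNReal.ofReal (dv p.1 ^ 2) else 0) *
      ENNReal.ofReal (dv p.2 ^ 2 * ((p.2 : ℕ) : ℝ) ^ (-1 / 2 - θ))
  have hle : ∀ k : s, wt θ R k ≤ Gp (φ k) := by
    intro k
    simp only [Gp, φ, wt]
    have ha := (hab k).1
    have hb := (hab k).2.1
    have hk := (hab k).2.2
    have ha0 : a k ≠ 0 := fun h0 => hR2 (by rw [h0] at ha; exact zero_dvd_iff.1 ha)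
    have hb0 : b k ≠ 0 := hb.1
    have ha1 : (1 : ℝ) ≤ a k := by exact_mod_cast Nat.one_le_iff_ne_zero.2 ha0
    have hb1 : (1 : ℝ) ≤ b k := by exact_mod_cast Nat.one_le_iff_ne_zero.2 hb0
    rw [if_pos (Nat.mem_divisors.2 ⟨ha, hR2⟩), ← ENNReal.ofReal_mul (by positivity)]
    apply ENNReal.ofReal_le_ofReal
    have hk1 : (1 : ℝ) ≤ (k : ℕ) := by
      rw [hk]; push_cast; nlinarith
    have e1 : |eF R k| * ((k : ℕ) : ℝ) ^ (-1 - 2 * θ) ≤
        dv (k : ℕ) ^ 2 * ((k : ℕ) : ℝ) ^ (-1 / 2 - θ) := by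
      calc |eF R k| * ((k : ℕ) : ℝ) ^ (-1 - 2 * θ)
          ≤ (√((k : ℕ) : ℝ) * dv k ^ 2) * ((k : ℕ) : ℝ) ^ (-1 - 2 * θ) := by
            apply mul_le_mul_of_nonneg_right (eF_bound h R k) (by positivity)
        _ = dv k ^ 2 * ((k : ℕ) : ℝ) ^ (-1 / 2 - 2 * θ) := by
            rw [Real.sqrt_eq_rpow, show (-1 / 2 - 2 * θ) = 1 / 2 + (-1 - 2 * θ) by ring,
              Real.rpow_add (by linarith)]
            ring
        _ ≤ _ := by
            apply mul_le_mul_of_nonneg_left _ (by positivity)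
            exact Real.rpow_le_rpow_of_exponent_le hk1 (by linarith)
    have e2 : dv (k : ℕ) ^ 2 ≤ dv (a k) ^ 2 * dv (b k) ^ 2 := by
      rw [← mul_pow, hk]
      exact pow_le_pow_left₀ (P004.B.dv_nonneg _) (P004.B.dv_mul_le _ _) 2
    have e3 : ((k : ℕ) : ℝ) ^ (-1 / 2 - θ) ≤ (b k : ℝ) ^ (-1 / 2 - θ) := by
      apply Real.rpow_le_rpow_of_nonpos (by linarith) _ (by linarith)
      rw [hk]; push_cast; nlinarith
    calc _ ≤ dv (k : ℕ) ^ 2 * ((k : ℕ) : ℝ) ^ (-1 / 2 - θ) := e1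
      _ ≤ (dv (a k) ^ 2 * dv (b k) ^ 2) * (b k : ℝ) ^ (-1 / 2 - θ) := by
          apply mul_le_mul e2 e3 (by positivity) (by positivity)
      _ = _ := by ring
  calc ∑' k : s, wt θ R k ≤ ∑' k : s, Gp (φ k) := ENNReal.tsum_le_tsum hle
    _ ≤ ∑' p, Gp p := ENNReal.tsum_comp_le_tsum_of_injective hinj Gp
    _ = (∑' a : ℕ, if a ∈ (R ^ 2).divisors then ENNReal.ofReal (dv a ^ 2) else 0) *
        ∑' r : {r : ℕ // Powerful r}, ENNReal.ofReal (dv r ^ 2 * (r : ℝ) ^ (-1 / 2 - θ)) := by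
        rw [← ENNReal.tsum_mul_right]
        simp only [Gp]
        rw [ENNReal.tsum_prod (f := fun (a : ℕ) (b : {r : ℕ // Powerful r}) =>
          (if a ∈ (R ^ 2).divisors then ENNReal.ofReal (dv a ^ 2) else 0) *
            ENNReal.ofReal (dv b ^ 2 * ((b : ℕ) : ℝ) ^ (-1 / 2 - θ)))]
        apply tsum_congr
        intro a
        rw [ENNReal.tsum_mul_left]
    _ ≤ ENNReal.ofReal (dv R ^ 6) * ENNReal.ofReal (C * (1 / θ) ^ A) := by
        apply mul_le_mul' _ (hA θ h0 h1)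
        rw [tsum_eq_sum (s := (R ^ 2).divisors) (fun x hx => if_neg hx)]
        have hd2 : dv (R ^ 2) ≤ dv R ^ 2 := P004.B.dv_pow_le R 2
        calc ∑ a ∈ (R ^ 2).divisors, (if a ∈ (R ^ 2).divisors then ENNReal.ofReal (dv a ^ 2) else 0)
            ≤ ∑ a ∈ (R ^ 2).divisors, ENNReal.ofReal ((dv R ^ 2) ^ 2) := by
              apply Finset.sum_le_sum
              intro a ha
              rw [if_pos ha]
              apply ENNReal.ofReal_le_ofReal
              apply pow_le_pow_left₀ (P004.B.dv_nonneg _)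
              exact (dv_mono hR2 (Nat.dvd_of_mem_divisors ha)).trans hd2
          _ = ENNReal.ofReal (dv (R ^ 2) * (dv R ^ 2) ^ 2) := by
              rw [Finset.sum_const, nsmul_eq_mul, ← ENNReal.ofReal_natCast,
                ← ENNReal.ofReal_mul (by positivity)]
              rfl
          _ ≤ ENNReal.ofReal (dv R ^ 6) := by
              apply ENNReal.ofReal_le_ofReal
              calc dv (R ^ 2) * (dv R ^ 2) ^ 2 ≤ dv R ^ 2 * (dv R ^ 2) ^ 2 := by
                    apply mul_le_mul_of_nonneg_right hd2 (by positivity)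
                _ = dv R ^ 6 := by ring
    _ = ENNReal.ofReal (C * (1 / θ) ^ A * dv R ^ 6) := by
        rw [← ENNReal.ofReal_mul (pow_nonneg (P004.B.dv_nonneg _) _)]
        congr 1
        ring

/-! ### regrouping a double series -/

theorem tsum_divAnti (f : ℕ × ℕ → ℂ) (hf : Summable f) (h0 : ∀ p : ℕ × ℕ, p.1 * p.2 = 0 → f p = 0) :
    ∑' n : ℕ, ∑ p ∈ n.divisorsAntidiagonal, f p = ∑' p : ℕ × ℕ, f p := by
  let F : ℕ → ℕ × ℕ → ℂ := fun n p => if p.1 * p.2 = n then f p else 0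
  have hi : Function.Injective (fun p : ℕ × ℕ => ((p.1 * p.2, p) : ℕ × (ℕ × ℕ))) := by
    intro p q h
    exact congrArg Prod.snd h
  have hF : Summable (Function.uncurry F) := by
    refine (hi.summable_iff ?_).1 ?_
    · rintro ⟨n, p⟩ hx
      simp only [Function.uncurry, F]
      rw [if_neg]
      intro h
      apply hx
      exact ⟨p, by rw [← h]⟩
    · have : (Function.uncurry F ∘ fun p : ℕ × ℕ => ((p.1 * p.2, p) : ℕ × (ℕ × ℕ))) = f := by
        ext p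
        simp [Function.uncurry, F]
      rw [this]
      exact hf
  have h1 : ∀ n : ℕ, ∑ p ∈ n.divisorsAntidiagonal, f p = ∑' p, F n p := by
    intro n
    rw [tsum_eq_sum (s := n.divisorsAntidiagonal)]
    · apply Finset.sum_congr rfl
      intro p hp
      simp only [F]
      rw [if_pos (Nat.mem_divisorsAntidiagonal.1 hp).1]
    · intro p hp
      simp only [F]
      split_ifs with h
      · rw [Nat.mem_divisorsAntidiagonal] at hp
        push Not at hp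
        exact h0 p (by rw [h]; exact hp h)
      · rfl
  calc ∑' n : ℕ, ∑ p ∈ n.divisorsAntidiagonal, f p = ∑' n, ∑' p, F n p := tsum_congr h1
    _ = ∑' p, ∑' n, F n p := (Summable.tsum_comm hF).symm
    _ = ∑' p, f p := by
        apply tsum_congr
        intro p
        simp only [F]
        simp_rw [eq_comm (a := p.1 * p.2)]
        exact tsum_ite_eq (p.1 * p.2) (fun _ => f p)

/-! ### the identity `Tf = ∑ eF k χ(k) k^s Bf (k u)` -/

theorem chi_le (m : ℤ) (n : ℕ) : |chi m n| ≤ 1 := by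
  unfold chi
  rcases jacobiSym.trichotomy m n with h | h | h <;> rw [h] <;> simp

theorem chi_mul (m : ℤ) (k l : ℕ) (hk : k ≠ 0) (hl : l ≠ 0) :
    chi m (k * l) = chi m k * chi m l := by
  unfold chi
  have : NeZero k := ⟨hk⟩
  have : NeZero l := ⟨hl⟩
  rw [jacobiSym.mul_right]
  push_cast
  rfl

theorem ca_abs_le (h : StCoef) (n : ℕ) : |(ca n : ℝ)| ≤ (n : ℝ) ^ 2 := by
  rcases Nat.eq_zero_or_pos n with rfl | hn
  · simp [h.zero]
  have h1 : (1 : ℝ) ≤ n := by exact_mod_cast hn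
  refine (h.bound n).trans ?_
  have h2 : dv n ≤ n := by
    unfold dv
    exact_mod_cast Nat.card_divisors_le_self n
  have h3 : √(n : ℝ) ≤ n := by
    rw [Real.sqrt_le_left (by linarith)]
    nlinarith
  calc dv n * √(n : ℝ) ≤ n * n := mul_le_mul h2 h3 (Real.sqrt_nonneg _) (by linarith)
    _ = _ := by ring

theorem eF_abs_le (h : StCoef) (R n : ℕ) : |eF R n| ≤ (n : ℝ) ^ 3 := by
  rcases Nat.eq_zero_or_pos n with rfl | hn
  · simp
  have h1 : (1 : ℝ) ≤ n := by exact_mod_cast hn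
  refine (eF_bound h R n).trans ?_
  have h2 : dv n ≤ n := by
    unfold dv
    exact_mod_cast Nat.card_divisors_le_self n
  have h3 : √(n : ℝ) ≤ n := by
    rw [Real.sqrt_le_left (by linarith)]
    nlinarith
  calc √(n : ℝ) * dv n ^ 2 ≤ n * (n : ℝ) ^ 2 := by
        apply mul_le_mul h3 _ (pow_nonneg (P004.B.dv_nonneg _) _) (by linarith)
        exact pow_le_pow_left₀ (P004.B.dv_nonneg _) h2 2
    _ = _ := by ring

/-- the exponent -/
noncomputable def sx (θ v : ℝ) : ℂ := -(θ : ℂ) + v * Complex.I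

theorem sx_re (θ v : ℝ) : (sx θ v).re = -θ := by simp [sx]

theorem norm_cpow_sx (θ v : ℝ) (n : ℕ) (hn : 0 < n) :
    ‖(n : ℂ) ^ sx θ v‖ = (n : ℝ) ^ (-θ) := by
  rw [Complex.norm_natCast_cpow_of_pos hn, sx_re]

/-- the summand of `Bf` -/
noncomputable def bt (θ v : ℝ) (m : ℤ) (u : ℝ) (n : ℕ) : ℂ :=
  (((ca n : ℝ) * chi m n * Real.exp (-π * n * u) : ℝ) : ℂ) * (n : ℂ) ^ sx θ v

theorem Bf_eq (θ v : ℝ) (m : ℤ) (u : ℝ) : Bf θ v m u = ∑' n, bt θ v m u n := rfl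

theorem norm_bt_le (h : StCoef) (θ v : ℝ) (hθ : 0 ≤ θ) (m : ℤ) (u : ℝ) (n : ℕ) :
    ‖bt θ v m u n‖ ≤ (n : ℝ) ^ 2 * Real.exp (-(π * u) * n) := by
  unfold bt
  rcases Nat.eq_zero_or_pos n with rfl | hn
  · simp [h.zero]
  rw [norm_mul, norm_cpow_sx θ v n hn, Complex.norm_real, Real.norm_eq_abs, abs_mul, abs_mul,
    Real.abs_exp]
  have h1 : (1 : ℝ) ≤ n := by exact_mod_cast hn
  have e1 : (n : ℝ) ^ (-θ) ≤ 1 := Real.rpow_le_one_of_one_le_of_nonpos h1 (by linarith)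
  have e2 := ca_abs_le h n
  have e3 := chi_le m n
  have e4 : Real.exp (-π * n * u) = Real.exp (-(π * u) * n) := by congr 1; ring
  rw [e4]
  have e5 : |(ca n : ℝ)| * |chi m n| ≤ (n : ℝ) ^ 2 * 1 :=
    mul_le_mul e2 e3 (abs_nonneg _) (by positivity)
  calc |(ca n : ℝ)| * |chi m n| * Real.exp (-(π * u) * n) * (n : ℝ) ^ (-θ)
      ≤ ((n : ℝ) ^ 2 * 1) * Real.exp (-(π * u) * n) * 1 := by
        apply mul_le_mul _ e1 (by positivity) (by positivity)
        exact mul_le_mul_of_nonneg_right e5 (Real.exp_pos _).le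
    _ = _ := by ring

theorem summable_bt (h : StCoef) (θ v : ℝ) (hθ : 0 ≤ θ) (m : ℤ) (u : ℝ) (hu : 0 < u) :
    Summable (bt θ v m u) := by
  apply Summable.of_norm_bounded (g := fun n : ℕ => (n : ℝ) ^ 2 * Real.exp (-(π * u) * n))
  · exact Real.summable_pow_mul_exp_neg_nat_mul 2 (by positivity)
  · exact norm_bt_le h θ v hθ m u

/-- the double summand -/
noncomputable def dt (θ v : ℝ) (R : ℕ) (m : ℤ) (u : ℝ) (p : ℕ × ℕ) : ℂ :=
  (eF R p.1 : ℂ) * (chi m p.1 : ℂ) * (p.1 : ℂ) ^ sx θ v * bt θ v m (p.1 * u) p.2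

theorem dt_zero (h : StCoef) (θ v : ℝ) (R : ℕ) (m : ℤ) (u : ℝ) (p : ℕ × ℕ) (hp : p.1 * p.2 = 0) :
    dt θ v R m u p = 0 := by
  unfold dt bt
  rcases Nat.mul_eq_zero.1 hp with h1 | h1 <;> rw [h1]
  · simp
  · simp [h.zero]

theorem summable_dt (h : StCoef) (θ v : ℝ) (hθ : 0 ≤ θ) (R : ℕ) (m : ℤ) (u : ℝ) (hu : 0 < u) :
    Summable (dt θ v R m u) := by
  have hs3 : Summable (fun n : ℕ => (n : ℝ) ^ 3 * Real.exp (-(π * u / 2) * n)) :=
    Real.summable_pow_mul_exp_neg_nat_mul 3 (by positivity)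
  have hs2 : Summable (fun n : ℕ => (n : ℝ) ^ 2 * Real.exp (-(π * u / 2) * n)) :=
    Real.summable_pow_mul_exp_neg_nat_mul 2 (by positivity)
  have hs := hs3.mul_of_nonneg hs2 (fun n => by positivity) (fun n => by positivity)
  apply Summable.of_norm_bounded hs
  rintro ⟨k, l⟩
  rcases Nat.eq_zero_or_pos k with rfl | hk
  · rw [dt_zero h _ _ _ _ _ _ (by simp)]; simp
  rcases Nat.eq_zero_or_pos l with rfl | hl
  · rw [dt_zero h _ _ _ _ _ _ (by simp)]; simp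
  have h1 : (1 : ℝ) ≤ k := by exact_mod_cast hk
  have h2 : (1 : ℝ) ≤ l := by exact_mod_cast hl
  unfold dt
  simp only
  rw [norm_mul, norm_mul, norm_mul, norm_cpow_sx θ v k hk, Complex.norm_real, Complex.norm_real,
    Real.norm_eq_abs, Real.norm_eq_abs]
  have e1 : (k : ℝ) ^ (-θ) ≤ 1 := Real.rpow_le_one_of_one_le_of_nonpos h1 (by linarith)
  have e2 := eF_abs_le h R k
  have e3 := chi_le m k
  have e4 := norm_bt_le h θ v hθ m (k * u) l
  have e5 : Real.exp (-(π * (k * u)) * l) ≤ Real.exp (-(π * u / 2) * k) *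
      Real.exp (-(π * u / 2) * l) := by
    rw [← Real.exp_add]
    apply Real.exp_le_exp.2
    have hpi : 0 < π * u := by positivity
    nlinarith [mul_nonneg hpi.le (mul_nonneg (by linarith : (0 : ℝ) ≤ k)
      (by linarith : (0 : ℝ) ≤ (l : ℝ) - 1)), mul_nonneg hpi.le
      (mul_nonneg (by linarith : (0 : ℝ) ≤ l) (by linarith : (0 : ℝ) ≤ (k : ℝ) - 1))]
  calc |eF R k| * |chi m k| * (k : ℝ) ^ (-θ) * ‖bt θ v m (k * u) l‖
      ≤ ((k : ℝ) ^ 3 * 1) * 1 * ((l : ℝ) ^ 2 * Real.exp (-(π * (k * u)) * l)) := by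
        apply mul_le_mul _ e4 (norm_nonneg _) (by positivity)
        apply mul_le_mul _ e1 (by positivity) (by positivity)
        exact mul_le_mul e2 e3 (abs_nonneg _) (by positivity)
    _ ≤ ((k : ℝ) ^ 3 * 1) * 1 * ((l : ℝ) ^ 2 * (Real.exp (-(π * u / 2) * k) *
      Real.exp (-(π * u / 2) * l))) := by
        apply mul_le_mul_of_nonneg_left _ (by positivity)
        exact mul_le_mul_of_nonneg_left e5 (by positivity)
    _ = _ := by ring

theorem dt_eq (θ v : ℝ) (R : ℕ) (m : ℤ) (u : ℝ) (k l n : ℕ) (hn : k * l = n) (h0 : n ≠ 0) :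
    dt θ v R m u (k, l) = ((eF R k * (ca l : ℝ) : ℝ) : ℂ) *
      ((chi m n : ℂ) * (Real.exp (-π * n * u) : ℂ) * (n : ℂ) ^ sx θ v) := by
  have hk : k ≠ 0 := by rintro rfl; simp at hn; exact h0 hn.symm
  have hl : l ≠ 0 := by rintro rfl; simp at hn; exact h0 hn.symm
  unfold dt bt
  simp only
  have e : Real.exp (-π * ((k * l : ℕ) : ℝ) * u) = Real.exp (-π * l * (k * u)) := by
    congr 1; push_cast; ring
  have e2 : ((k * l : ℕ) : ℂ) ^ sx θ v = (k : ℂ) ^ sx θ v * (l : ℂ) ^ sx θ v := by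
    push_cast
    exact Complex.natCast_mul_natCast_cpow k l _
  rw [← hn, chi_mul m k l hk hl, e, e2]
  push_cast
  ring

theorem Tf_eq (h : StCoef) (θ v : ℝ) (hθ : 0 ≤ θ) (R : ℕ) (m : ℤ) (u : ℝ) (hu : 0 < u) :
    Tf θ v R m u = ∑' k : ℕ, (eF R k : ℂ) * (chi m k : ℂ) * (k : ℂ) ^ sx θ v *
      Bf θ v m (k * u) := by
  have h1 : Tf θ v R m u = ∑' n : ℕ, ∑ p ∈ n.divisorsAntidiagonal, dt θ v R m u p := by
    unfold Tf
    apply tsum_congr
    intro n
    rcases Nat.eq_zero_or_pos n with rfl | hn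
    · simp
    have e1 : ∑ p ∈ n.divisorsAntidiagonal, dt θ v R m u p =
        ∑ p ∈ n.divisorsAntidiagonal, ((eF R p.1 * (ca p.2 : ℝ) : ℝ) : ℂ) *
          ((chi m n : ℂ) * (Real.exp (-π * n * u) : ℂ) * (n : ℂ) ^ sx θ v) := by
      apply Finset.sum_congr rfl
      rintro ⟨k, l⟩ hp
      exact dt_eq θ v R m u k l n (Nat.mem_divisorsAntidiagonal.1 hp).1 hn.ne'
    rw [e1, ← Finset.sum_mul, ← Complex.ofReal_sum, conv_apply h R n]
    split_ifs with hc
    · push_cast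
      rw [show (-(θ : ℂ) + v * Complex.I) = sx θ v from rfl]
      ring
    · simp
  rw [h1, tsum_divAnti _ (summable_dt h θ v hθ R m u hu) (dt_zero h θ v R m u),
    (summable_dt h θ v hθ R m u hu).tsum_prod]
  apply tsum_congr
  intro k
  unfold dt
  simp only
  rw [tsum_mul_left, Bf_eq]

/-- Cauchy-Schwarz with weights, for series in `ℝ≥0∞` -/
theorem cs_tsum (w f : ℕ → ℝ≥0∞) :
    (∑' k, w k * f k) ^ 2 ≤ (∑' k, w k) * ∑' k, w k * f k ^ 2 := by
  have hfin : ∀ s : Finset ℕ, (∑ k ∈ s, w k * f k) ^ 2 ≤ (∑' k, w k) * ∑' k, w k * f k ^ 2 := by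
    intro s
    have h1 := ENNReal.inner_le_weight_mul_Lp_of_nonneg s (p := 2) (by norm_num) w f
    have h2 : (∑ k ∈ s, w k * f k) ^ (2 : ℝ) ≤
        ((∑ i ∈ s, w i) ^ (1 - (2 : ℝ)⁻¹) * (∑ i ∈ s, w i * f i ^ (2 : ℝ)) ^ (2 : ℝ)⁻¹) ^ (2 : ℝ) :=
      ENNReal.rpow_le_rpow h1 (by norm_num)
    rw [ENNReal.mul_rpow_of_nonneg _ _ (by norm_num), ← ENNReal.rpow_mul, ← ENNReal.rpow_mul] at h2
    norm_num at h2
    refine h2.trans ?_
    exact mul_le_mul' (ENNReal.sum_le_tsum s) (ENNReal.sum_le_tsum s)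
  have hs : Tendsto (fun s : Finset ℕ => (∑ k ∈ s, w k * f k) ^ 2) atTop
      (𝓝 ((∑' k, w k * f k) ^ 2)) := by
    have := (ENNReal.summable (f := fun k => w k * f k)).hasSum
    exact (ENNReal.continuous_pow 2).continuousAt.tendsto.comp this
  exact le_of_tendsto' hs hfin

/-- pointwise bound for `Tf` -/
theorem enorm_Tf_sq_le (h : StCoef) (θ v : ℝ) (hθ : 0 ≤ θ) (R : ℕ) (m : ℤ) (u : ℝ) (hu : 0 < u) :
    ‖Tf θ v R m u‖ₑ ^ 2 ≤ (∑' k, wt θ R k) *
      ∑' k : ℕ, wt θ R k * (ENNReal.ofReal ((k : ℝ) ^ (1 + θ)) * ‖Bf θ v m (k * u)‖ₑ) ^ 2 := by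
  refine le_trans ?_ (cs_tsum _ _)
  have h1 : ‖Tf θ v R m u‖ₑ ≤
      ∑' k : ℕ, wt θ R k * (ENNReal.ofReal ((k : ℝ) ^ (1 + θ)) * ‖Bf θ v m (k * u)‖ₑ) := by
    rw [Tf_eq h θ v hθ R m u hu]
    refine (enorm_tsum_le_tsum_enorm).trans ?_
    apply ENNReal.tsum_le_tsum
    intro k
    rcases Nat.eq_zero_or_pos k with rfl | hk
    · simp
    have hk0 : (0 : ℝ) < k := by exact_mod_cast hk
    rw [enorm_mul, ← mul_assoc]
    apply mul_le_mul_left
    unfold wt
    rw [← ENNReal.ofReal_mul (by positivity), ← ofReal_norm]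
    apply ENNReal.ofReal_le_ofReal
    rw [norm_mul, norm_mul, norm_cpow_sx θ v k hk, Complex.norm_real, Complex.norm_real,
      Real.norm_eq_abs, Real.norm_eq_abs, mul_assoc, mul_assoc, ← Real.rpow_add hk0]
    have e : (-1 - 2 * θ) + (1 + θ) = -θ := by ring
    rw [e]
    have e3 := chi_le m k
    have e4 : (0 : ℝ) ≤ (k : ℝ) ^ (-θ) := by positivity
    calc |eF R k| * (|chi m k| * (k : ℝ) ^ (-θ)) ≤ |eF R k| * (1 * (k : ℝ) ^ (-θ)) := by
          apply mul_le_mul_of_nonneg_left _ (abs_nonneg _)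
          exact mul_le_mul_of_nonneg_right e3 e4
      _ = _ := by rw [one_mul]
  exact pow_le_pow_left' h1 2

/-! ### measurability and scaling -/

theorem aemeasurable_Bf (h : StCoef) (θ v : ℝ) (hθ : 0 ≤ θ) (m : ℤ) (c : ℝ) (hc : 0 < c) :
    AEMeasurable (fun u => Bf θ v m (c * u)) (volume.restrict (Ioi 0)) := by
  apply aemeasurable_of_tendsto_metrizable_ae atTop
    (f := fun (s : Finset ℕ) (u : ℝ) => ∑ n ∈ s, bt θ v m (c * u) n)
  · intro s
    apply Continuous.aemeasurable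
    apply continuous_finsetSum
    intro n _
    unfold bt
    fun_prop
  · filter_upwards [ae_restrict_mem measurableSet_Ioi] with u hu
    exact (summable_bt h θ v hθ m (c * u) (mul_pos hc hu)).hasSum

theorem lintegral_scale (f : ℝ → ℝ≥0∞) (c : ℝ) (hc : 0 < c) :
    ∫⁻ u in Ioi (0 : ℝ), f (c * u) = ENNReal.ofReal c⁻¹ * ∫⁻ u in Ioi (0 : ℝ), f u := by
  have h1 : ∫⁻ u in Ioi (0 : ℝ), f (c * u) = ∫⁻ u, (Ioi (0 : ℝ)).indicator f (c * u) := by
    rw [← lintegral_indicator measurableSet_Ioi]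
    apply lintegral_congr
    intro u
    by_cases hu : 0 < u
    · rw [indicator_of_mem (by exact hu), indicator_of_mem (by exact mul_pos hc hu)]
    · rw [indicator_of_notMem (by exact hu), indicator_of_notMem]
      simp only [mem_Ioi, not_lt] at hu ⊢
      exact mul_nonpos_of_nonneg_of_nonpos hc.le hu
  have h2 : ∫⁻ u, (Ioi (0 : ℝ)).indicator f (c * u) =
      ∫⁻ u, (Ioi (0 : ℝ)).indicator f u ∂(Measure.map (c * ·) volume) := by
    have := lintegral_map_equiv (μ := volume) ((Ioi (0 : ℝ)).indicator f)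
      (Homeomorph.mulLeft₀ c hc.ne').toMeasurableEquiv
    simpa using this.symm
  rw [h1, h2, Real.map_volume_mul_left hc.ne', lintegral_smul_measure,
    lintegral_indicator measurableSet_Ioi, abs_of_pos (inv_pos.2 hc)]
  rfl

theorem ofReal_norm_sq_mul (z : ℂ) (x : ℝ) :
    ENNReal.ofReal (‖z‖ ^ 2 * x) = ‖z‖ₑ ^ 2 * ENNReal.ofReal x := by
  rw [ENNReal.ofReal_mul (by positivity), ENNReal.ofReal_pow (norm_nonneg _), ofReal_norm]

theorem scaled_nrm (θ v : ℝ) (m : ℤ) (k : ℕ) (hk : 0 < k) :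
    ∫⁻ u in Ioi (0 : ℝ), (ENNReal.ofReal ((k : ℝ) ^ (1 + θ)) * ‖Bf θ v m (k * u)‖ₑ) ^ 2 *
      ENNReal.ofReal (u ^ (1 + 2 * θ)) = nrm θ (Bf θ v m) := by
  have hk0 : (0 : ℝ) < k := by exact_mod_cast hk
  have h1 := lintegral_scale (fun u => ENNReal.ofReal (‖Bf θ v m u‖ ^ 2 * u ^ (1 + 2 * θ))) k hk0
  have h2 : ∫⁻ u in Ioi (0 : ℝ), (ENNReal.ofReal ((k : ℝ) ^ (1 + θ)) * ‖Bf θ v m (k * u)‖ₑ) ^ 2 *
      ENNReal.ofReal (u ^ (1 + 2 * θ)) =
      ∫⁻ u in Ioi (0 : ℝ), ENNReal.ofReal k *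
        ENNReal.ofReal (‖Bf θ v m (k * u)‖ ^ 2 * (k * u) ^ (1 + 2 * θ)) := by
    apply setLIntegral_congr_fun measurableSet_Ioi
    intro u hu
    have hu' : 0 < u := hu
    simp only
    rw [ofReal_norm_sq_mul, mul_pow, ← ENNReal.ofReal_pow (by positivity),
      Real.mul_rpow hk0.le hu'.le, ENNReal.ofReal_mul (by positivity)]
    have e : ENNReal.ofReal (((k : ℝ) ^ (1 + θ)) ^ 2) =
        ENNReal.ofReal k * ENNReal.ofReal ((k : ℝ) ^ (1 + 2 * θ)) := by
      rw [← ENNReal.ofReal_mul hk0.le]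
      congr 1
      rw [← Real.rpow_natCast, ← Real.rpow_mul hk0.le]
      nth_rewrite 2 [← Real.rpow_one (k : ℝ)]
      rw [← Real.rpow_add hk0]
      congr 1
      push_cast; ring
    rw [e]
    ring
  rw [h2, lintegral_const_mul' _ _ ENNReal.ofReal_ne_top, h1, ← mul_assoc,
    ← ENNReal.ofReal_mul hk0.le, mul_inv_cancel₀ hk0.ne', ENNReal.ofReal_one, one_mul]
  rfl

theorem nrm_Tf_le (h : StCoef) (θ v : ℝ) (hθ : 0 ≤ θ) (R : ℕ) (m : ℤ)
    (hW : ∑' k, wt θ R k ≠ ∞) :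
    nrm θ (Tf θ v R m) ≤ (∑' k, wt θ R k) * ((∑' k, wt θ R k) * nrm θ (Bf θ v m)) := by
  have h1 : nrm θ (Tf θ v R m) ≤ ∫⁻ u in Ioi (0 : ℝ), (∑' k, wt θ R k) *
      ∑' k : ℕ, wt θ R k * ((ENNReal.ofReal ((k : ℝ) ^ (1 + θ)) * ‖Bf θ v m (k * u)‖ₑ) ^ 2 *
        ENNReal.ofReal (u ^ (1 + 2 * θ))) := by
    unfold nrm
    apply lintegral_mono_ae
    filter_upwards [ae_restrict_mem measurableSet_Ioi] with u hu
    rw [ofReal_norm_sq_mul]
    refine (mul_le_mul_left (enorm_Tf_sq_le h θ v hθ R m u hu) _).trans ?_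
    rw [mul_assoc]
    apply le_of_eq
    congr 1
    rw [← ENNReal.tsum_mul_right]
    apply tsum_congr
    intro k
    ring
  refine h1.trans ?_
  rw [lintegral_const_mul' _ _ hW]
  apply mul_le_mul_right
  rw [lintegral_tsum]
  · rw [← ENNReal.tsum_mul_right]
    apply ENNReal.tsum_le_tsum
    intro k
    rcases Nat.eq_zero_or_pos k with rfl | hk
    · simp [wt]
    · rw [lintegral_const_mul' _ _ (by unfold wt; exact ENNReal.ofReal_ne_top),
        scaled_nrm θ v m k hk]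
  · intro k
    rcases Nat.eq_zero_or_pos k with rfl | hk
    · simp [wt]
    · have hk0 : (0 : ℝ) < k := by exact_mod_cast hk
      apply AEMeasurable.const_mul
      apply AEMeasurable.mul (f := fun x : ℝ => (ENNReal.ofReal ((k : ℝ) ^ (1 + θ)) *
        ‖Bf θ v m (k * x)‖ₑ) ^ 2) (g := fun x : ℝ => ENNReal.ofReal (x ^ (1 + 2 * θ)))
      · apply AEMeasurable.pow_const
        apply AEMeasurable.const_mul
        exact (aemeasurable_Bf h θ v hθ m k hk0).enorm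
      · apply Measurable.aemeasurable
        apply ENNReal.measurable_ofReal.comp
        fun_prop

end G

/-- Module G. -/
theorem pfConv (h : StCoef) (hD : StDiv) : StConv := by
  obtain ⟨C, hC, A, hA⟩ := G.sum_wt h hD
  refine ⟨C ^ 2, by positivity, 2 * A + 12, fun θ h0 h1 v m R hR => ?_⟩
  have hW := hA θ h0 (by linarith) R hR
  have hW' : ∑' k, G.wt θ R k ≠ ∞ := ne_top_of_le_ne_top ENNReal.ofReal_ne_top hW
  refine (G.nrm_Tf_le h θ v h0.le R m hW').trans ?_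
  rw [← mul_assoc]
  apply mul_le_mul_left
  refine (mul_le_mul' hW hW).trans ?_
  have hd : 1 ≤ dv R := G.one_le_dv hR.ne'
  have ht : 1 ≤ 1 / θ := by rw [le_div_iff₀ h0]; linarith
  rw [← ENNReal.ofReal_mul (by positivity)]
  apply ENNReal.ofReal_le_ofReal
  calc C * (1 / θ) ^ A * dv R ^ 6 * (C * (1 / θ) ^ A * dv R ^ 6)
      = C ^ 2 * (1 / θ) ^ (2 * A) * dv R ^ 12 := by ring
    _ ≤ C ^ 2 * (1 / θ) ^ (2 * A + 12) * dv R ^ (2 * A + 12) := by
        apply mul_le_mul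
        · apply mul_le_mul_of_nonneg_left _ (by positivity)
          exact pow_le_pow_right₀ ht (by omega)
        · exact pow_le_pow_right₀ hd (by omega)
        · positivity
        · positivity

end P004G
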