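import Vale.Agent.P004G.Iface

/-!
# P004G, module H4: the term `j = 0` of the dual sum
-/

open Real MeasureTheory Set
open scoped ENNReal

namespace P004G

variable [Crv]

namespace H4

lemma chi_zero {n : ℕ} (h0 : n ≠ 0) (h1 : n ≠ 1) : chi 0 n = 0 := by
  unfold chi
  rw [jacobiSym.zero_left (by omega)]
  simp

lemma chi_one (m : ℤ) : chi m 1 = 1 := by
  unfold chi
  simp

lemma lint_exp {K a c : ℝ} (ha : 0 < a) (hc : 0 < c) (hK : 0 ≤ K) :
    ∫⁻ u in Ioi (0 : ℝ), ENNReal.ofReal (K * Real.exp (-(c * u)) * u ^ (a - 1)) =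
      ENNReal.ofReal (K * ((1 / c) ^ a * Real.Gamma a)) := by
  have hi : IntegrableOn (fun u : ℝ => K * (u ^ (a - 1) * Real.exp (-(c * u)))) (Ioi 0) := by
    have := integrableOn_rpow_mul_exp_neg_mul_rpow (s := a - 1) (p := 1) (b := c)
      (by linarith) one_pos hc
    simp only [Real.rpow_one, neg_mul] at this
    exact this.const_mul K
  rw [← Real.integral_rpow_mul_exp_neg_mul_Ioi ha hc, ← integral_const_mul,
    ofReal_integral_eq_lintegral_ofReal hi]
  · refine setLIntegral_congr_fun measurableSet_Ioi fun u _ => ?_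
    congr 1
    ring
  · refine (ae_restrict_iff' measurableSet_Ioi).2 (Filter.Eventually.of_forall fun u hu => ?_)
    have hu' : (0 : ℝ) < u := hu
    simp only [Pi.zero_apply]
    positivity

lemma term_zero (H : ℝ) (r : ℕ) (u : ℝ) {g m₁ m₂ : ℕ} (h : m₁ ≠ 1 ∨ m₂ ≠ 1) :
    AjTerm H r 0 u (g, m₁, m₂) = 0 := by
  unfold AjTerm
  split_ifs with hc
  · have h0 : m₁ * m₂ ≠ 0 := by
      intro h0
      have := hc.1.ne_zero
      simp only at this
      apply this
      rw [mul_assoc, h0, mul_zero]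
    have h1 : m₁ * m₂ ≠ 1 := by
      intro h1
      have h3 : m₁ = 1 := Nat.dvd_one.1 (Dvd.intro _ h1)
      have h4 : m₂ = 1 := Nat.dvd_one.1 (Dvd.intro_left _ h1)
      omega
    simp only
    rw [chi_zero h0 h1]
    ring
  · rfl

lemma Aj_eq (H : ℝ) (r : ℕ) (u : ℝ) :
    Aj H r 0 u = ∑' g : ℕ, AjTerm H r 0 u (g, 1, 1) := by
  unfold Aj
  have hinj : Function.Injective (fun g : ℕ => ((g, 1, 1) : ℕ × ℕ × ℕ)) := by
    intro a b h
    simpa using h
  rw [← hinj.tsum_eq]
  intro t ht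
  obtain ⟨g, m₁, m₂⟩ := t
  rw [Function.mem_support] at ht
  by_cases h : m₁ ≠ 1 ∨ m₂ ≠ 1
  · exact absurd (term_zero H r u h) ht
  · push Not at h
    exact ⟨g, by simp [h.1, h.2]⟩

lemma ca_sq_le (h1 : StCoef) (g : ℕ) : (ca g : ℝ) ^ 2 ≤ dv g ^ 2 * g := by
  have h := h1.bound g
  have h2 : |(ca g : ℝ)| ^ 2 ≤ (dv g * √(g : ℝ)) ^ 2 := by
    apply pow_le_pow_left₀ (abs_nonneg _) h
  rw [sq_abs, mul_pow, Real.sq_sqrt (Nat.cast_nonneg _)] at h2
  exact h2

lemma term_bound (h1 : StCoef) (H : ℝ) (r : ℕ) (u : ℝ) (g : ℕ) :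
    |AjTerm H r 0 u (g, 1, 1)| ≤
      (|Gk 0| * (dv g ^ 3 * g)) * Real.exp (-((2 * π * g) * u)) := by
  unfold AjTerm
  split_ifs with hc
  · simp only [mul_one, chi_one, dvd_zero, if_true, Int.cast_zero, abs_zero, zero_mul, zero_div]
    have hl : lam 1 = 1 := by
      unfold lam
      rw [h1.one]
      simp
    rw [hl, mul_one, mul_one]
    have hsum : |∑ d ∈ g.divisors, (ArithmeticFunction.moebius d : ℝ) / d * Gk 0| ≤
        dv g * |Gk 0| := by
      refine (Finset.abs_sum_le_sum_abs _ _).trans ?_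
      unfold dv
      rw [← nsmul_eq_mul]
      apply Finset.sum_le_card_nsmul
      intro d hd
      rw [abs_mul]
      have hd0 : 0 < d := Nat.pos_of_mem_divisors hd
      have h3 : |(ArithmeticFunction.moebius d : ℝ) / d| ≤ 1 := by
        rw [abs_div, div_le_one (by positivity)]
        have h4 : |(ArithmeticFunction.moebius d : ℝ)| ≤ 1 := by
          exact_mod_cast ArithmeticFunction.abs_moebius_le_one
        have h5 : (1 : ℝ) ≤ |(d : ℝ)| := by
          rw [Nat.abs_cast]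
          exact_mod_cast hd0
        linarith
      calc |(ArithmeticFunction.moebius d : ℝ) / d| * |Gk 0| ≤ 1 * |Gk 0| :=
            mul_le_mul_of_nonneg_right h3 (abs_nonneg _)
        _ = |Gk 0| := one_mul _
    have he : Real.exp (-π * g * u * ((1 : ℕ) + (1 : ℕ))) = Real.exp (-((2 * π * g) * u)) := by
      congr 1
      push_cast
      ring
    rw [he, abs_mul, abs_of_pos (Real.exp_pos _)]
    apply mul_le_mul_of_nonneg_right _ (Real.exp_pos _).le
    rw [abs_mul, abs_of_nonneg (sq_nonneg _)]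
    calc (ca g : ℝ) ^ 2 * |∑ d ∈ g.divisors, (ArithmeticFunction.moebius d : ℝ) / d * Gk 0|
        ≤ (dv g ^ 2 * g) * (dv g * |Gk 0|) := by
          apply mul_le_mul (ca_sq_le h1 g) hsum (abs_nonneg _)
          unfold dv
          positivity
      _ = |Gk 0| * (dv g ^ 3 * g) := by ring
  · rw [abs_zero]
    unfold dv
    positivity

end H4

open H4 in
/-- Module H4. -/
theorem pfA0 (h1 : StCoef) (h2 : StDiv) : StA0 := by
  obtain ⟨C, hC, A, hCA⟩ := h2.1 3
  refine ⟨2 * (|Gk 0| + 1) * C, by positivity, A, ?_⟩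
  intro θ hθ0 hθ1 H r hH hr
  have step1 : ∀ u : ℝ, 0 < u → ENNReal.ofReal (|Aj H r 0 u| * u ^ (1 + 2 * θ)) ≤
      ∑' g : ℕ, ENNReal.ofReal ((|Gk 0| * (dv g ^ 3 * g)) *
        Real.exp (-((2 * π * g) * u)) * u ^ ((2 + 2 * θ) - 1)) := by
    intro u hu
    have hpow : (0 : ℝ) ≤ u ^ ((2 + 2 * θ) - 1) := by positivity
    have h3 : (1 + 2 * θ) = (2 + 2 * θ) - 1 := by ring
    rw [h3, ENNReal.ofReal_mul (abs_nonneg _)]
    have h4 : ENNReal.ofReal |Aj H r 0 u| ≤
        ∑' g : ℕ, ENNReal.ofReal ((|Gk 0| * (dv g ^ 3 * g)) * Real.exp (-((2 * π * g) * u))) := by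
      rw [Aj_eq, ← Real.norm_eq_abs, ofReal_norm]
      refine enorm_tsum_le_tsum_enorm.trans ?_
      apply ENNReal.tsum_le_tsum
      intro g
      rw [← ofReal_norm, Real.norm_eq_abs]
      exact ENNReal.ofReal_le_ofReal (term_bound h1 H r u g)
    calc ENNReal.ofReal |Aj H r 0 u| * ENNReal.ofReal (u ^ ((2 + 2 * θ) - 1))
        ≤ (∑' g : ℕ, ENNReal.ofReal ((|Gk 0| * (dv g ^ 3 * g)) *
            Real.exp (-((2 * π * g) * u)))) * ENNReal.ofReal (u ^ ((2 + 2 * θ) - 1)) :=
          mul_le_mul_left h4 _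
      _ = _ := by
          rw [← ENNReal.tsum_mul_right]
          congr 1
          funext g
          rw [← ENNReal.ofReal_mul]
          unfold dv
          positivity
  calc ∫⁻ u in Ioi (0 : ℝ), ENNReal.ofReal (|Aj H r 0 u| * u ^ (1 + 2 * θ))
      ≤ ∫⁻ u in Ioi (0 : ℝ), ∑' g : ℕ, ENNReal.ofReal ((|Gk 0| * (dv g ^ 3 * g)) *
        Real.exp (-((2 * π * g) * u)) * u ^ ((2 + 2 * θ) - 1)) :=
        setLIntegral_mono' measurableSet_Ioi step1
    _ = ∑' g : ℕ, ∫⁻ u in Ioi (0 : ℝ), ENNReal.ofReal ((|Gk 0| * (dv g ^ 3 * g)) *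
        Real.exp (-((2 * π * g) * u)) * u ^ ((2 + 2 * θ) - 1)) := by
        rw [lintegral_tsum]
        intro g
        apply Measurable.aemeasurable
        apply Measurable.ennreal_ofReal
        fun_prop
    _ ≤ ∑' g : ℕ, ENNReal.ofReal (2 * (|Gk 0| + 1)) *
          ENNReal.ofReal (dv g ^ 3 * (g : ℝ) ^ (-1 - θ)) := by
        apply ENNReal.tsum_le_tsum
        intro g
        rcases Nat.eq_zero_or_pos g with hg | hg
        · subst hg
          simp
        have hg' : (1 : ℝ) ≤ (g : ℝ) := by exact_mod_cast hg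
        have hdv : 0 ≤ dv g := by unfold dv; positivity
        rw [lint_exp (by linarith) (by positivity) (by positivity),
          ← ENNReal.ofReal_mul (by positivity)]
        apply ENNReal.ofReal_le_ofReal
        have hG : Real.Gamma (2 + 2 * θ) ≤ 2 := by
          have h3 : Real.Gamma 3 = 2 := by
            rw [show (3 : ℝ) = ((2 : ℕ) : ℝ) + 1 by norm_num, Real.Gamma_nat_eq_factorial]
            norm_num [Nat.factorial]
          calc Real.Gamma (2 + 2 * θ) ≤ Real.Gamma 3 :=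
                Real.Gamma_strictMonoOn_Ici.monotoneOn (by simp [hθ0.le]) (by norm_num)
                  (by linarith)
            _ = 2 := h3
        have hG0 : 0 ≤ Real.Gamma (2 + 2 * θ) := (Real.Gamma_pos_of_pos (by linarith)).le
        have hp : (1 / (2 * π * (g : ℝ))) ^ (2 + 2 * θ) ≤ (g : ℝ) ^ (-(2 + 2 * θ)) := by
          rw [Real.rpow_neg (by positivity), ← Real.inv_rpow (by positivity)]
          apply Real.rpow_le_rpow (by positivity) _ (by linarith)
          rw [one_div]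
          apply inv_anti₀ (by positivity)
          have : (1 : ℝ) ≤ 2 * π := by linarith [Real.pi_gt_three]
          nlinarith
        have hp2 : (g : ℝ) * (g : ℝ) ^ (-(2 + 2 * θ)) ≤ (g : ℝ) ^ (-1 - θ) := by
          nth_rewrite 1 [← Real.rpow_one (g : ℝ)]
          rw [← Real.rpow_add (by positivity)]
          apply Real.rpow_le_rpow_of_exponent_le hg'
          linarith
        calc |Gk 0| * (dv g ^ 3 * g) *
              ((1 / (2 * π * (g : ℝ))) ^ (2 + 2 * θ) * Real.Gamma (2 + 2 * θ))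
            ≤ |Gk 0| * (dv g ^ 3 * g) * ((g : ℝ) ^ (-(2 + 2 * θ)) * 2) := by
              apply mul_le_mul_of_nonneg_left _ (by positivity)
              apply mul_le_mul hp hG hG0 (by positivity)
          _ = 2 * |Gk 0| * (dv g ^ 3 * ((g : ℝ) * (g : ℝ) ^ (-(2 + 2 * θ)))) := by ring
          _ ≤ 2 * (|Gk 0| + 1) * (dv g ^ 3 * (g : ℝ) ^ (-1 - θ)) := by
              apply mul_le_mul (by linarith) _ (by positivity) (by positivity)
              exact mul_le_mul_of_nonneg_left hp2 (by positivity)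
    _ = ENNReal.ofReal (2 * (|Gk 0| + 1)) *
          ∑' g : ℕ, ENNReal.ofReal (dv g ^ 3 * (g : ℝ) ^ (-1 - θ)) := ENNReal.tsum_mul_left
    _ ≤ ENNReal.ofReal (2 * (|Gk 0| + 1)) * ENNReal.ofReal (C * (1 / θ) ^ A) := by
        apply mul_le_mul_right
        exact hCA θ hθ0 (by linarith)
    _ = ENNReal.ofReal (2 * (|Gk 0| + 1) * C * (1 / θ) ^ A) := by
        rw [← ENNReal.ofReal_mul (by positivity)]
        congr 1
        ring

end P004G
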