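import Vale.Agent.P004G.D
import Vale.Agent.P004G.I1
import Vale.Agent.P004G.H3
import Vale.Agent.P004G.H4
import Vale.Agent.P004G.H5
import Vale.Agent.P004G.F
import Vale.Agent.P004G.G
import Vale.Agent.P004G.H3.Edge3
import Vale.Agent.P004G.H3.Tw01
import Vale.Agent.P004G.H353.Js
import Vale.Agent.P004G.H353.Wts
import Vale.Agent.P004G.H353.Sep2
import Vale.Agent.P004G.H253.Tw9
import Vale.Agent.P004G.H628.Tw2
import Vale.Agent.P004G.H628.Poly
import Vale.Agent.P004G.H128.Pass3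
import Vale.Agent.P004G.H293.R2
import Vale.Agent.P004G.H293.R3
import Vale.Agent.P004G.H293.R4
import Vale.Agent.P004G.H394.Moll4
import Vale.Agent.P004G.H394.Wf
import Vale.Agent.P004G.H503.Block
import Vale.Agent.P004.H394.All3

/-!
# P004G: assembly of the modules
-/

namespace P004G

variable [Crv]

theorem full (hF : StFold) : StFull :=
  H3.pfFull_of pfCoef (pfPair (pfPois P004.pfTw)) P004.pfKer
    (pfDecomp pfCoef hF P004.pfDiv)
    (pfAj (pfStSep pfCoef P004.pfKer) (pfConv pfCoef P004.pfDiv) (pfStFrac pfCoef) P004.pfDiv)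
    (pfA0 pfCoef P004.pfDiv) (pfTail P004.pfKer) P004.pfDiv

theorem tw2 (hFull : StFull) : StTw2 :=
  pfTw2 pfCoef (Tw.twL (pfSep2 pfCoef P004.pfKer) (pfConv pfCoef P004.pfDiv) (pfStFrac pfCoef)
    (Tw.pfWts pfCoef P004.pfDiv) (Tw.pfJs hFull P004.pfDiv))

theorem moll (hFull : StFull) : StMoll :=
  have hF : P004.StFour := P004.pfFour
  pfMoll pfCoef P004.pfDiv pfTw0 pfTw1 (tw2 hFull) (pfPass pfCoef) (pfPassN pfCoef)
    (pfLim pfCoef) (pfLN pfCoef) (H293.pfR2 pfCoef) (H293.pfR3 pfCoef) (H293.pfR4 pfCoef) pfPoly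
    (P004.Moll.repA hF) (P004.Moll.repB hF) (P004.Moll.repC hF)

theorem block (hF : StFold) (hV : StVan2) : StBlock :=
  pfBlock (full hF) hV pfWf (moll (full hF))

end P004G
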