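import Vale.Agent.P004G.Defs

/-!
# P004G: frozen statements of the modules

Every module proves `theorem pfXxx : StXxx` (taking other `StYyy` as hypotheses when needed).
Differences with `P004`:
* `StCoef`: the field `bad` replaces `mod_four`, `three_mod_four`; `hecke` for `¬ p ∣ bd`;
* `StPois`, `StPair`: every odd squarefree `q` (helper3: `P004.StPoisG`, `P004.StPairG`);
* both signs of the twist: `m : ℤ`, sums over `sqZ X`, `Jm m = Jz m + Jz (-m)`;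
  the dual sums contain `± j` (written `ε * j` with `ε.natAbs = 1`);
* the functional equation enters only through `StFold` (for the second moment) and `StVan2`
  (folded identity for a finite combination of dilates of `theta m`).
-/

open Real MeasureTheory Set
open scoped ENNReal

namespace P004G

variable [Crv]

/-! ### A. arithmetic of `ca` -/

/-- Module A : basic arithmetic of `ca`. -/
structure StCoef : Prop where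
  zero : ca 0 = 0
  one : ca 1 = 1
  mul : ∀ m n : ℕ, Nat.Coprime m n → ca (m * n) = ca m * ca n
  bad : ∀ n : ℕ, ¬ n.Coprime bd → ca n = 0
  hecke : ∀ p k : ℕ, p.Prime → ¬ p ∣ bd →
    ca (p ^ (k + 2)) = ca p * ca (p ^ (k + 1)) - p * ca (p ^ k)
  bound : ∀ n : ℕ, |(ca n : ℝ)| ≤ dv n * √(n : ℝ)

theorem bd_ne : bd ≠ 0 := Crv.bd_ne

theorem two_dvd_bd : 2 ∣ bd := Crv.two_dvd

theorem pfCoef : StCoef where
  zero := Crv.c_bad 0 (by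
    rw [Nat.coprime_zero_left]
    intro h
    exact absurd (Nat.le_of_dvd (by omega) (h ▸ Crv.two_dvd)) (by norm_num))
  one := Crv.c_one
  mul := Crv.c_mul
  bad := Crv.c_bad
  hecke := Crv.c_hecke
  bound := Crv.c_bound

/-- `n` is coprime to the bad modulus (true when `ca n ≠ 0`) -/
def Good (n : ℕ) : Prop := n ≠ 0 ∧ n.Coprime bd

theorem Good.ne_zero {n : ℕ} (h : Good n) : n ≠ 0 := h.1

theorem Good.odd {n : ℕ} (h : Good n) : Odd n := by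
  rw [← Nat.coprime_two_right]
  exact h.2.coprime_dvd_right two_dvd_bd

theorem Good.of_ca {n : ℕ} (h : ca n ≠ 0) : Good n := by
  refine ⟨fun h0 => h ?_, ?_⟩
  · rw [h0]; exact pfCoef.zero
  · by_contra h1
    exact h (pfCoef.bad n h1)

theorem Good.mul {m n : ℕ} (hm : Good m) (hn : Good n) : Good (m * n) :=
  ⟨Nat.mul_ne_zero hm.1 hn.1, Nat.Coprime.mul_left hm.2 hn.2⟩

theorem Good.of_dvd {m n : ℕ} (hn : Good n) (h : m ∣ n) : Good m :=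
  ⟨ne_zero_of_dvd_ne_zero hn.1 h, hn.2.coprime_dvd_left h⟩

theorem Good.one : Good 1 := ⟨one_ne_zero, Nat.coprime_one_left _⟩

theorem Good.not_dvd {p n : ℕ} (hp : p.Prime) (hn : Good n) (h : p ∣ n) : ¬ p ∣ bd := by
  intro h1
  exact hp.one_lt.ne' (Nat.eq_one_of_dvd_coprimes hn.2 h h1)

theorem good_prime {p : ℕ} (hp : p.Prime) (h : ¬ p ∣ bd) : Good p :=
  ⟨hp.ne_zero, (Nat.Prime.coprime_iff_not_dvd hp).2 h⟩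

/-- the sum over both signs -/
theorem sum_sqZ {M : Type*} [AddCommMonoid M] (X : ℕ) (f : ℤ → M) :
    ∑ m ∈ sqZ X, f m = ∑ m ∈ sqf X, (f m + f (-m)) := by
  classical
  rw [Finset.sum_add_distrib]
  have e1 : sqZ X = ((sqf X).image (fun m : ℕ => (m : ℤ))) ∪
      ((sqf X).image (fun m : ℕ => -(m : ℤ))) := by
    ext m
    simp only [sqZ, sqf, Finset.mem_union, Finset.mem_image, Finset.mem_filter, Finset.mem_Icc]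
    constructor
    · rintro ⟨⟨h1, h2⟩, h3⟩
      have h4 : m ≠ 0 := h3.ne_zero
      have h5 : Squarefree m.natAbs := Int.squarefree_natAbs.2 h3
      rcases le_total 0 m with h | h
      · exact Or.inl ⟨m.natAbs, ⟨⟨by omega, by omega⟩, h5⟩, by omega⟩
      · exact Or.inr ⟨m.natAbs, ⟨⟨by omega, by omega⟩, h5⟩, by omega⟩
    · rintro (⟨k, ⟨⟨h1, h2⟩, h3⟩, rfl⟩ | ⟨k, ⟨⟨h1, h2⟩, h3⟩, rfl⟩)
      · exact ⟨⟨by omega, by omega⟩, Int.squarefree_natCast.2 h3⟩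
      · refine ⟨⟨by omega, by omega⟩, ?_⟩
        rw [← Int.squarefree_natAbs]
        simpa using h3
  rw [e1, Finset.sum_union, Finset.sum_image, Finset.sum_image]
  · intro a _ b _ h
    simpa using h
  · intro a _ b _ h
    simpa using h
  · rw [Finset.disjoint_left]
    rintro m h1 h2
    simp only [Finset.mem_image, sqf, Finset.mem_filter, Finset.mem_Icc] at h1 h2
    obtain ⟨a, ⟨⟨ha, -⟩, -⟩, rfl⟩ := h1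
    obtain ⟨b, ⟨⟨hb, -⟩, -⟩, h⟩ := h2
    omega

theorem sumJ_eq (X : ℕ) : sumJ X = ∑ m ∈ sqZ X, Jz m := (sum_sqZ X _).symm

theorem mem_sqZ {X : ℕ} {m : ℤ} : m ∈ sqZ X ↔ m.natAbs ≤ X ∧ Squarefree m := by
  simp only [sqZ, Finset.mem_filter, Finset.mem_Icc]
  constructor
  · rintro ⟨⟨h1, h2⟩, h3⟩
    exact ⟨by omega, h3⟩
  · rintro ⟨h1, h3⟩
    exact ⟨⟨by omega, by omega⟩, h3⟩

/-! ### C, D. Poisson summation for real characters -/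

/-- Module D : Poisson summation for `(h/q)`, `q` odd squarefree. -/
def StPois : Prop :=
  ∀ q : ℕ, Squarefree q → Odd q → ∀ T : ℝ, 0 < T →
    ∑' h : ℤ, Real.exp (-π * (h : ℝ) ^ 2 / T ^ 2) * chi h q =
      T / √(q : ℝ) * ∑' j : ℤ, Real.exp (-π * (j : ℝ) ^ 2 * T ^ 2 / (q : ℝ) ^ 2) * chi j q

/-- Module D2 : the mixed Poisson formula for a pair `n₁, n₂`. -/
def StPair : Prop :=
  ∀ n₁ n₂ : ℕ, Squarefree n₁ → Squarefree n₂ → Odd n₁ → Odd n₂ → ∀ H : ℝ, 0 < H →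
    ∫ x in Ioi (0 : ℝ), x ^ 15 * Real.exp (-x) *
        ∑' h : ℤ, Real.exp (-π * (h : ℝ) ^ 2 * x ^ 16 / H ^ 2) * chi h (n₁ * n₂) =
      H * ∑ d ∈ (n₁.gcd n₂).divisors, (ArithmeticFunction.moebius d : ℝ) /
          (d * √(((n₁ / n₁.gcd n₂) * (n₂ / n₁.gcd n₂) : ℕ) : ℝ)) *
        ∑' j : ℤ, if (d : ℤ) ∣ j then
          chi j ((n₁ / n₁.gcd n₂) * (n₂ / n₁.gcd n₂)) *
            Gk (|(j : ℝ)| * H / ((d : ℝ) ^ 2 * (((n₁ / n₁.gcd n₂) * (n₂ / n₁.gcd n₂) : ℕ) : ℝ)))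
          else 0

/-! ### the functional equation, as used by the second moment -/

/-- Module Z1 : the second moment of `theta m` is carried by `u > 1/(3 k₀ |m|)`. -/
def StFold : Prop :=
  ∃ k₀ : ℕ, 1 ≤ k₀ ∧ ∃ C : ℝ, 0 < C ∧ ∀ m : ℤ, Squarefree m →
    Jz m ≤ ENNReal.ofReal C * ∫⁻ u in Ioi (1 / (3 * (k₀ * |(m : ℝ)|)) : ℝ),
      ENNReal.ofReal (theta m u ^ 2 * u)

/-! ### F, G. analysis of `Bf`, `Tf` -/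

/-- Module F : fractional integration. -/
def StFrac : Prop :=
  ∃ C : ℝ, 0 < C ∧ ∀ θ : ℝ, 0 < θ → θ ≤ 1 / 8 → ∀ v : ℝ, ∀ m : ℤ, m ≠ 0 →
    nrm θ (Bf θ v m) ≤ ENNReal.ofReal (C * (1 / θ) ^ 2 * Real.exp (2 * π * |v|)) * (Jz m + 1)

/-- Module G : convolution bound for `Tf`. -/
def StConv : Prop :=
  ∃ C : ℝ, 0 < C ∧ ∃ A : ℕ, ∀ θ : ℝ, 0 < θ → θ ≤ 1 / 8 → ∀ v : ℝ, ∀ m : ℤ, ∀ R : ℕ, 0 < R →
    nrm θ (Tf θ v R m) ≤ ENNReal.ofReal (C * (1 / θ) ^ A * dv R ^ A) * nrm θ (Bf θ v m)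

/-! ### H. the dual sum -/

/-- Module H1 : the positivity step and Poisson summation. -/
def StSumS : Prop :=
  ∃ C : ℝ, 0 < C ∧ ∀ (X r : ℕ) (H u : ℝ), 0 < r → 1 ≤ X → (X : ℝ) ≤ H → 0 < u →
    ENNReal.ofReal (∑ m ∈ sqZ X, Uf m r u ^ 2) ≤
      ENNReal.ofReal (C * H) * (ENNReal.ofReal |Aj H r 0 u| +
        ∑' j : ℕ, (ENNReal.ofReal |Aj H r (j + 1) u| + ENNReal.ofReal |Aj H r (-(j + 1)) u|))

/-- Module H2 : separation of variables in `Aj`. -/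
def StSep : Prop :=
  ∃ C : ℝ, 0 < C ∧ ∀ θ : ℝ, 0 < θ → θ ≤ 1 / 8 → ∀ (H : ℝ) (r : ℕ) (j : ℤ) (u : ℝ), 0 < H →
    0 < r → j ≠ 0 → 0 < u →
    ENNReal.ofReal |Aj H r j u| ≤
      ENNReal.ofReal (C * (|(j : ℝ)| * H) ^ (-1 / 2 + θ)) *
        ∑' g : ℕ, ∑' e : ℕ, ENNReal.ofReal (g * dv g ^ 3 * (dv e ^ 2 * (e : ℝ) ^ (1 - 2 * θ))) *
          ∫⁻ v : ℝ, ENNReal.ofReal (Real.exp (-3 * π * |v|) *
            ‖Tf θ v (e * g * r) j (u * g * e)‖ ^ 2)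

/-- Module H3 : the bound for one `j ≠ 0`, `j = ε j₁ j₂²`. -/
def StAj : Prop :=
  ∃ C : ℝ, 0 < C ∧ ∃ A : ℕ, ∀ θ : ℝ, 0 < θ → θ ≤ 1 / 8 → ∀ (H : ℝ) (r j₁ j₂ : ℕ) (ε : ℤ),
    ε.natAbs = 1 → 0 < H → 0 < r → Squarefree j₁ → 0 < j₂ →
    ∫⁻ u in Ioi (0 : ℝ),
      ENNReal.ofReal (|Aj H r (ε * ((j₁ * j₂ ^ 2 : ℕ) : ℤ)) u| * u ^ (1 + 2 * θ)) ≤
      ENNReal.ofReal (C * (1 / θ) ^ A * dv r ^ A * dv j₂ ^ A *
        (((j₁ * j₂ ^ 2 : ℕ) : ℝ) * H) ^ (-1 / 2 + θ)) * (Jm j₁ + 1)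

/-- Module H4 : the term `j = 0`. -/
def StA0 : Prop :=
  ∃ C : ℝ, 0 < C ∧ ∃ A : ℕ, ∀ θ : ℝ, 0 < θ → θ ≤ 1 / 8 → ∀ (H : ℝ) (r : ℕ), 0 < H → 0 < r →
    ∫⁻ u in Ioi (0 : ℝ), ENNReal.ofReal (|Aj H r 0 u| * u ^ (1 + 2 * θ)) ≤
      ENNReal.ofReal (C * (1 / θ) ^ A)

/-- Module H5 : the tail `j H > X² (C L)^17`. -/
def StTail : Prop :=
  ∃ C : ℝ, 1 ≤ C ∧ ∀ (L θ H : ℝ) (X r : ℕ) (ε : ℤ), ε.natAbs = 1 → 1 ≤ X → 1 ≤ L →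
    Real.log X ≤ L → 0 < θ → θ ≤ 1 / 8 → (X : ℝ) ≤ H → 0 < r →
    ∑' j : ℕ, (if (X : ℝ) ^ 2 * (C * L) ^ 17 < j * H then
      ∫⁻ u in Ioi (1 / (3 * X) : ℝ), ENNReal.ofReal (|Aj H r (ε * j) u| * u ^ (1 + 2 * θ))
      else 0) ≤ 1

/-! ### I. assembly of the full second moment -/

/-- Module I1 : reduction of `sumJ` to squarefree-supported sums (uses `StFold`). -/
def StDecomp : Prop :=
  ∃ k₀ : ℕ, 1 ≤ k₀ ∧ ∃ C : ℝ, 0 < C ∧ ∃ A : ℕ, ∀ θ : ℝ, 0 < θ → θ ≤ 1 / 8 → ∀ X : ℕ, 1 ≤ X →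
    sumJ X ≤ ENNReal.ofReal (C * (1 / θ) ^ A * (3 * (k₀ * X) : ℝ) ^ (2 * θ)) *
      ∑' r : {r : ℕ // Powerful r}, ENNReal.ofReal (dv r ^ 2 * (r : ℝ) ^ (-1 / 2 - 3 / 2 * θ)) *
        ∫⁻ u in Ioi (1 / (3 * (k₀ * X)) : ℝ),
          ENNReal.ofReal ((∑ m ∈ sqZ X, Uf m r u ^ 2) * u ^ (1 + 2 * θ))

/-- Module A' : the full second moment is `≪ X (log X)^A`. -/
def StFull : Prop := ∃ C : ℝ, 1 ≤ C ∧ ∃ A : ℕ, ∀ X : ℕ, 3 ≤ X →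
  sumJ X ≤ ENNReal.ofReal (C * X * Real.log X ^ A)

/-! ### T. twisted mean values -/

/-- the linear functional `∫_0^∞ theta h u f(u) du` -/
noncomputable def Fn (f : ℝ → ℝ) (h : ℤ) : ℝ := ∫ u in Ioi (0 : ℝ), theta h u * f u

/-- its coefficients: `Fn f h = ∑ bet f n chi h n` -/
noncomputable def bet (f : ℝ → ℝ) (n : ℕ) : ℝ :=
  4 * ca n * ∫ u in Ioi (0 : ℝ), Real.exp (-π * n * u) * f u

/-- Module T0 : mean value of one character. -/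
def StTw0 : Prop :=
  ∃ C : ℝ, 1 ≤ C ∧ ∀ (H : ℝ) (ν : ℕ), 1 ≤ H → Good ν → |Eh H ν| ≤ C * (√(ν : ℝ) * dv ν)

/-- Module T1 : twisted first moment. -/
def StTw1 : Prop :=
  ∃ C : ℝ, 1 ≤ C ∧ ∃ A : ℕ, ∀ (L H U : ℝ) (ν : ℕ) (f : ℝ → ℝ), 1 ≤ L → 1 ≤ H →
    Real.exp (-L) ≤ U → U ≤ 1 → Good ν → Measurable f → (∀ u, |f u| ≤ 1) →
    (∀ u, u < U → f u = 0) →
    |(∑' h : ℤ, P004.H1.ah H h * chi h ν * Fn f h) -
      5040 * H * ∑' n : ℕ, bet f n * rho (ν * n)| ≤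
      C * L ^ A * (√(ν : ℝ) * dv ν ^ A) / U

/-- Module T2 : twisted second moment. -/
def StTw2 : Prop :=
  ∃ C : ℝ, 1 ≤ C ∧ ∃ A : ℕ, ∀ (L H U : ℝ) (ν : ℕ) (f : ℝ → ℝ), 1 ≤ L → 1 ≤ H → Real.log H ≤ L →
    Real.exp (-L) ≤ U → U ≤ 1 → Good ν → Real.log ν ≤ L → Measurable f → (∀ u, |f u| ≤ 1) →
    (∀ u, u < U → f u = 0) →
    |(∑' h : ℤ, P004.H1.ah H h * chi h ν * Fn f h ^ 2) -
      5040 * H * ∑' p : ℕ × ℕ, bet f p.1 * bet f p.2 * rho (ν * p.1 * p.2)| ≤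
      C * L ^ A * (√(ν : ℝ) * dv ν ^ A) / U

/-- the summand of `AG`: `t = (g, m₁, m₂)` -/
noncomputable def AGTerm (H : ℝ) (R j : ℕ) (k : ℤ) (u₁ u₂ : ℝ) (t : ℕ × ℕ × ℕ) : ℝ :=
  if Squarefree (t.1 * t.2.1 * t.2.2) ∧ (t.1 * t.2.1 * t.2.2).Coprime R then
    (ca t.1 : ℝ) ^ 2 * (lam t.2.1 * lam t.2.2) * chi k (t.2.1 * t.2.2) *
      (∑ d ∈ t.1.divisors, if d ∣ j then
        (ArithmeticFunction.moebius d : ℝ) / d *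
          Gk ((j : ℝ) * H / ((d : ℝ) ^ 2 * (t.2.1 * t.2.2))) else 0) *
      Real.exp (-π * t.1 * (t.2.1 * u₁ + t.2.2 * u₂))
  else 0

/-- the dual sum: like `Aj`, but with two variables `u₁, u₂`, and with the character `(k/·)` not
tied to `j` -/
noncomputable def AG (H : ℝ) (R j : ℕ) (k : ℤ) (u₁ u₂ : ℝ) : ℝ :=
  ∑' t : ℕ × ℕ × ℕ, AGTerm H R j k u₁ u₂ t

/-- Module D2 : separation of variables in `AG`. -/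
def StSep2 : Prop :=
  ∃ C : ℝ, 0 < C ∧ ∀ θ : ℝ, 0 < θ → θ ≤ 1 / 8 → ∀ (H : ℝ) (R j : ℕ) (k : ℤ) (u₁ u₂ : ℝ), 0 < H →
    0 < R → 0 < j → 0 < u₁ → 0 < u₂ →
    ENNReal.ofReal |AG H R j k u₁ u₂| ≤
      ENNReal.ofReal (C * (j * H) ^ (-1 / 2 + θ)) *
        ∑' g : ℕ, ∑' e : ℕ, ENNReal.ofReal (g * dv g ^ 3 * (dv e ^ 2 * (e : ℝ) ^ (1 - 2 * θ))) *
          ∫⁻ v : ℝ, ENNReal.ofReal (Real.exp (-3 * π * |v|) *
            (‖Tf θ v (e * g * R) k (u₁ * g * e)‖ * ‖Tf θ v (e * g * R) k (u₂ * g * e)‖))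

/-- Module D3 : the bound for one `j ≥ 1`, `k = ε k₁ k₂²`. -/
def StAG : Prop :=
  ∃ C : ℝ, 0 < C ∧ ∃ A : ℕ, ∀ θ : ℝ, 0 < θ → θ ≤ 1 / 8 →
    ∀ (H V₁ V₂ : ℝ) (R j k₁ k₂ : ℕ) (ε : ℤ), ε.natAbs = 1 → 0 < H → 0 < V₁ → 0 < V₂ → 0 < R →
    0 < j → Squarefree k₁ → 0 < k₂ →
    ∫⁻ u₁ in Ioi V₁, ∫⁻ u₂ in Ioi V₂,
      ENNReal.ofReal |AG H R j (ε * ((k₁ * k₂ ^ 2 : ℕ) : ℤ)) u₁ u₂| ≤
      ENNReal.ofReal (C * (1 / θ) ^ A * dv R ^ A * dv k₂ ^ A * (j * H) ^ (-1 / 2 + θ) *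
        (V₁ * V₂) ^ (-θ)) * (Jm k₁ + 1)

/-- Module D4 : the tail bound. -/
def StTailAG : Prop :=
  ∃ C : ℝ, 1 ≤ C ∧ ∀ (H V₁ V₂ : ℝ) (R j : ℕ) (k : ℤ), 0 < H → 0 < V₁ → 0 < V₂ → 0 < R → 0 < j →
    ∫⁻ u₁ in Ioi V₁, ∫⁻ u₂ in Ioi V₂, ENNReal.ofReal |AG H R j k u₁ u₂| ≤
      ENNReal.ofReal (C * (1 + 1 / V₁) ^ 8 * (1 + 1 / V₂) ^ 8 * Real.exp (-(V₁ + V₂)) *
        Real.exp (-(j * H * V₁ * V₂) ^ (2 / 21 : ℝ) / C))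

/-! ### M. the mollifier (block `m ≤ Y`, `L = log Y`) -/

open scoped Classical in
/-- the good primes in `(y_{k+1}, y_k]` -/
noncomputable def Ik (L : ℝ) (k : ℕ) : Finset ℕ :=
  (Finset.range (⌊yk L k⌋₊ + 1)).filter (fun p => p.Prime ∧ ¬ p ∣ bd ∧ yk L (k + 1) < p)

/-- the Dirichlet inverse of `ca` (with `chi` inserted): `1 - c_p χ_p p^{-s} + χ_p² p^{1-2s}` -/
noncomputable def muc (a : ℕ) : ℝ :=
  ∏ p ∈ a.primeFactors, (if a.factorization p = 1 then -(ca p : ℝ)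
    else if a.factorization p = 2 then (p : ℝ) else 0)

open scoped Classical in
/-- the support of block `k` -/
noncomputable def Ak (L : ℝ) (k : ℕ) : Finset ℕ :=
  ((∏ p ∈ Ik L k, p ^ 2).divisors).filter (fun a => ArithmeticFunction.cardFactors a ≤ lk k)

/-- block `k` of the mollifier, at the shift `K / L` -/
noncomputable def Mk (L K : ℝ) (k : ℕ) (X : ℕ → ℝ) : ℝ :=
  ∑ a ∈ Ak L k, muc a * (a : ℝ) ^ (-1 - K / L) * X a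

/-- the product of the blocks `k₁ ≤ k < k₂` -/
noncomputable def Mf (L K : ℝ) (k₁ k₂ : ℕ) (X : ℕ → ℝ) : ℝ :=
  ∏ k ∈ Finset.Ico k₁ k₂, Mk L K k X

/-- Module M0 : the product of blocks as a Dirichlet polynomial. -/
def StPoly : Prop :=
  ∀ (L K : ℝ) (k₁ k₂ : ℕ), 1 ≤ L → 0 ≤ K → ∃ (S : Finset ℕ) (m : ℕ → ℝ),
    (∀ X : ℕ → ℝ, CM X → Mf L K k₁ k₂ X = ∑ a ∈ S, m a * X a) ∧
    (∀ a ∈ S, |m a| ≤ 1 ∧ Good a ∧ (a : ℝ) ≤ Real.exp (L / 1600 * Real.exp (-(k₁ : ℝ) / 2)) ∧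
      ∀ p : ℕ, p.Prime → p ∣ a → (p : ℝ) ≤ yk L k₁)

/-! ### R. the random model -/

/-- the random Euler product over the good primes `< N` -/
noncomputable def LN (N : ℕ) (X : ℕ → ℝ) (s : ℂ) : ℂ :=
  ∏ p ∈ N.primesBelow, if p ∣ bd then 1 else
    (1 - (ca p : ℂ) * (X p : ℂ) * (p : ℂ) ^ (-s) + (X p : ℂ) ^ 2 * (p : ℂ) ^ (1 - 2 * s))⁻¹

/-- Module R2 : second moment of the mollified random Euler product. -/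
def StR2 : Prop :=
  ∃ C : ℝ, 1 ≤ C ∧ ∃ A : ℕ, ∀ (L K σ τ : ℝ) (j N : ℕ), 1 ≤ L → 1 ≤ K → K ≤ L →
    1 / (2 * L) ≤ σ → σ ≤ 10 * K / L → yk L 0 < N →
    EN N (fun X => (Mf L K (2 * j) ⌈L⌉₊ X) ^ 2 * ‖LN N X (1 + σ + τ * Complex.I)‖ ^ 2) ≤
      C * (K * 2 ^ j) ^ A * (1 + |τ| * L / 2 ^ j) ^ A

/-- Module R3 : mollification at the shift `K / L` itself. -/
def StR3 : Prop :=
  ∃ C c : ℝ, 1 ≤ C ∧ 0 < c ∧ ∀ (L K : ℝ) (N : ℕ), 1 ≤ L → 1 ≤ K → K ≤ L → yk L 0 < N →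
    EN N (fun X => ‖(Mf L K 0 ⌈L⌉₊ X : ℂ) * LN N X (1 + K / L) - 1‖ ^ 2) ≤
      C * Real.exp (-c * √K)

/-- Module R4 : second moment of the first blocks. -/
def StR4 : Prop :=
  ∃ C : ℝ, 1 ≤ C ∧ ∀ (L K : ℝ) (k₂ N : ℕ), 1 ≤ L → 0 ≤ K → yk L 0 < N →
    EN N (fun X => (Mf L K 0 k₂ X) ^ 2) ≤ C ^ k₂ ∧
    EN N (fun X => (Mf L K 0 ⌈L⌉₊ X) ^ 2) ≤ C * L ^ C

/-! ### P. from the random model to the mean values -/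

/-- Module P1 : a bound for the quadratic form by means of the random model. -/
def StPass : Prop :=
  ∀ (Y : ℕ) (S : Finset ℕ) (m : ℕ → ℝ) (Z w σ U b : ℝ) (B N₀ : ℕ) (h : ℝ → ℝ) (g : ℝ → ℂ),
    1 ≤ Y → 0 < U → 0 < σ → σ ≤ 1 → 0 ≤ Z → 0 < w → Measurable h → (∀ x, |h x| ≤ b) →
    (∀ u, 0 < u → u < U → cfY Y h u = 0) →
    (∀ a ∈ S, a ≠ 0) → (∀ a ∈ S, ∀ p, p.Prime → p ∣ a → p < N₀) →
    Continuous g → Integrable g → Integrable (fun τ => ‖g τ‖ * (1 + |τ| * w) ^ B) →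
    (∀ x : ℝ, (h x * Real.exp (-σ * x) : ℂ) = ∫ τ : ℝ, g τ * Complex.exp (τ * x * Complex.I)) →
    (∀ (N : ℕ) (τ : ℝ), N₀ ≤ N → EN N (fun X => (∑ a ∈ S, m a * X a) ^ 2 *
      ‖LN N X (1 + σ + τ * Complex.I)‖ ^ 2) ≤ Z * (1 + |τ| * w) ^ (2 * B)) →
    ∑ a ∈ S, ∑ a' ∈ S, m a * m a' *
        ∑' p : ℕ × ℕ, bet (cfY Y h) p.1 * bet (cfY Y h) p.2 * rho (a * a' * p.1 * p.2) ≤
      16 * Z * ((Y : ℝ) ^ σ * ∫ τ, ‖g τ‖ * (1 + |τ| * w) ^ B) ^ 2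

/-! ### W. mean values of mollified windows -/

/-- the functional of the window `h` in the variable `x = log(uY)` -/
noncomputable def Fw (Y : ℕ) (h : ℝ → ℝ) (m : ℤ) : ℝ := Fn (cfY Y h) m

/-- Module W (THE statement consumed by the assembly; it hides the construction of the
mollifier), over both signs of `m`. -/
def StMoll : Prop :=
  ∃ (n A : ℕ) (C c : ℝ), 1 ≤ C ∧ 0 < c ∧ ∀ (Y : ℕ) (K : ℝ), 3 ≤ Y → 1 ≤ K →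
    K ≤ Real.log Y ^ (1 / 8 : ℝ) → ∃ M Mr : ℕ → ℤ → ℝ,
    (∀ (j : ℕ) (m : ℤ), (2 : ℝ) ^ j ≤ Real.log Y ^ (1 / 4 : ℝ) → M 0 m = M j m * Mr j m) ∧
    (∀ (j : ℕ) (h : ℝ → ℝ) (b : ℝ), (2 : ℝ) ^ j ≤ Real.log Y ^ (1 / 4 : ℝ) → ContDiff ℝ n h →
      (∀ x, h x ≠ 0 → wj Y j ≤ x ∧ x ≤ 3 * Real.log Y) → 0 ≤ b →
      (∀ i ≤ n, ∀ x, |iteratedDeriv i h x| ≤ b * (wj Y j)⁻¹ ^ i) →
      ∑ m ∈ sqZ Y, (M j m * Fw Y h m) ^ 2 ≤ C * Y * (K * 2 ^ j) ^ A * b ^ 2) ∧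
    (∀ j : ℕ, (2 : ℝ) ^ j ≤ Real.log Y ^ (1 / 4 : ℝ) →
      ∑ m ∈ sqZ Y, (Mr j m) ^ 2 ≤ C * Y * (2 ^ j) ^ A) ∧
    ∑ m ∈ sqZ Y, (M 0 m) ^ 2 ≤ C * Y * Real.log Y ^ A ∧
    ∑ m ∈ sqZ Y, (M 0 m * Fw Y (fun x => psi Y x * Real.exp (K / Real.log Y * x)) m -
      cmain Y K) ^ 2 ≤ C * Y * Real.exp (2 * K - c * √K)

/-! ### V. vanishing -/

/-- `∫ theta m u (log u)^i du = 0` for all `i < r` -/
def Van (m : ℤ) (r : ℕ) : Prop :=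
  ∀ i < r, ∫ u in Ioi (0 : ℝ), theta m u * Real.log u ^ i = 0

/-- Module Z2 : the folded identity, for a finite combination of dilates of `theta m`; `q` is the
conductor parameter, `κ` the root number and `∑ b k k^{1+z}` the value at `1 - z` of the inverse of
the product of the Euler factors at the bad primes. -/
def StVan2 : Prop :=
  ∃ (K₀ k₀ : ℕ) (B₀ c₀ δ : ℝ), 1 ≤ K₀ ∧ 1 ≤ k₀ ∧ 1 ≤ B₀ ∧ 0 < c₀ ∧ 0 < δ ∧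
    ∀ m : ℤ, Squarefree m → ∃ (κ q : ℝ) (b : ℕ → ℝ), (κ = 1 ∨ κ = -1) ∧ 0 < q ∧
      |(m : ℝ)| / k₀ ≤ √q ∧ √q ≤ k₀ * |(m : ℝ)| ∧ (∀ k, |b k| ≤ B₀) ∧
      (∀ z : ℝ, 0 ≤ z → z ≤ δ → c₀ ≤ |∑ k ∈ K₀.divisors, b k * (k : ℝ) ^ (1 + z)|) ∧
      ∀ (r Y : ℕ) (P : Polynomial ℝ), 1 ≤ Y → Van m r → P.degree < r →
        ∫ u in Ioi (1 / √q), (∑ k ∈ K₀.divisors, b k * theta m (u / k)) *
          (P.eval (Real.log (u * Y)) +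
            κ * P.eval (2 * Real.log (Y / √q) - Real.log (u * Y))) = 0

/-! ### I. assembly -/

/-- Module I1 : derivatives of the window functions (`z₀ = K / log Y`), with a bounded shift `s` of
the polynomial part (for `Y ≥ Y₀(s₀)`). -/
structure StWf : Prop where
  smooth : ∀ (Y j n : ℕ), 3 ≤ Y → ContDiff ℝ n (Wn Y j) ∧ ContDiff ℝ n (psi Y)
  near : ∀ (n : ℕ) (s₀ : ℝ), 0 ≤ s₀ → ∃ (C : ℝ) (Y₀ : ℕ), 1 ≤ C ∧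
    ∀ (Y j a b : ℕ) (K s : ℝ), 3 ≤ Y → Y₀ ≤ Y → 1 ≤ K → K ≤ Real.log Y →
    (2 : ℝ) ^ j ≤ 2 * Real.log Y ^ (1 / 4 : ℝ) → |s| ≤ s₀ → ∀ i ≤ n, ∀ x : ℝ,
    |iteratedDeriv i (fun x => Wn Y j x * Gp (K / Real.log Y) a b (x + s)) x| ≤
      C * K ^ n * (K / 2 ^ j) ^ a * Real.exp (K / 5) * (wj Y (j + 1))⁻¹ ^ i ∧
    |iteratedDeriv i (fun x => Wn Y j x * Gp (K / Real.log Y) a b (-(x + s))) x| ≤
      C * K ^ n * (K / 2 ^ j) ^ a * Real.exp (K / 5) * (wj Y (j + 1))⁻¹ ^ i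
  outer : ∀ (n : ℕ) (s₀ : ℝ), 0 ≤ s₀ → ∃ (C : ℝ) (Y₀ : ℕ), 1 ≤ C ∧
    ∀ (Y a b : ℕ) (K s : ℝ), 3 ≤ Y → Y₀ ≤ Y → 1 ≤ K → K ≤ Real.log Y → |s| ≤ s₀ → ∀ i ≤ n, ∀ x : ℝ,
    (30 * K ≤ b → |iteratedDeriv i (fun x => psi Y x * (Gp (K / Real.log Y) a b (x + s) -
      Real.exp (K / Real.log Y * (x + s)))) x| ≤ C * (1 + 4 * K) ^ (a + n) * (wj Y 0)⁻¹ ^ i) ∧
    (20 * K ≤ b → |iteratedDeriv i (fun x => psi Y x * Gp (K / Real.log Y) a b (-(x + s))) x| ≤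
      C * (1 + 4 * K) ^ (a + n) * (wj Y 0)⁻¹ ^ i) ∧
    |iteratedDeriv i (fun x => psi Y x * Gp (K / Real.log Y) a b (-(x + s))) x| ≤
      C * (1 + 4 * K) ^ n * Real.exp (3 * K) * (wj Y 0)⁻¹ ^ i

open scoped Classical in
/-- Module I2 : the bound for one block. -/
def StBlock : Prop :=
  ∃ c : ℝ, 0 < c ∧ ∀ B : ℕ, ∃ C : ℝ, 1 ≤ C ∧ ∀ (Y r : ℕ), 3 ≤ Y →
    (((sqZ Y).filter (fun m => Y < 2 * m.natAbs ∧ Van m r)).card : ℝ) ≤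
      C * Y * (Real.exp (-c * √r) + Real.log Y ^ (-(B : ℝ)))

open scoped Classical in
/-- Module I3 : tail and moments of any function `a` on the squarefree integers which is bounded by
the order of vanishing and by `C log(3 |m|)`. -/
def StMom : Prop :=
  ∀ a : ℤ → ℕ, (∀ m : ℤ, Squarefree m → m ≠ 1 → Van m (a m)) →
    (∃ C : ℝ, ∀ m : ℤ, Squarefree m → m ≠ 1 → (a m : ℝ) ≤ C * Real.log (3 * |(m : ℝ)|)) →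
    (∃ c : ℝ, 0 < c ∧ ∀ B : ℕ, ∃ C : ℝ, 0 < C ∧ ∀ X : ℕ, 3 ≤ X → ∀ z : ℝ, 0 ≤ z →
      (((sqZ X).filter (fun m => m ≠ 1 ∧ z ≤ (a m : ℝ))).card : ℝ) ≤
        C * X * (Real.exp (-c * √z) + Real.log X ^ (-(B : ℝ)))) ∧
    (∀ k : ℕ, ∃ C : ℝ, 0 < C ∧ ∀ X : ℕ, 3 ≤ X →
      ∑ m ∈ (sqZ X).filter (fun m => m ≠ 1), (a m : ℝ) ^ k ≤ C * X)

end P004G
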