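import Vale.Agent.P004G.Iface
import Vale.Agent.P004.H3.PoisG

/-!
# P004G, module D: Poisson summation
-/

namespace P004G

theorem pfPois (hTw : StTw) : StPois := P004.pfPoisG hTw

theorem pfPair (hP : StPois) : StPair := P004.pfPairG hP

end P004G
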