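import Vale.Agent.P004.H503.Iface3

/-!
# P004G: the moments method for the quadratic twists of a general coefficient system

`class Crv` : the coefficients `c n` of `L(E, s)` outside a finite set of bad primes (the primes
dividing `bd`, `2 ∣ bd`).

* `ca n`      : `Crv.c n`;
* `theta m u` : `4 ∑ ca n (m/n) e^{-π n u}`, for `m : ℤ` of EITHER sign;
* `Jz m`      : `∫_0^∞ theta m u ^ 2 u du`, `m : ℤ`;
* `Jm m`      : `Jz m + Jz (-m)`, `m : ℕ`.

Everything which does not depend on the coefficients is taken from `P004` (exported below).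
-/

open Real MeasureTheory Set
open scoped ENNReal

namespace P004G

export P004 (chi dv sqf nrm Gk Powerful kapc StDiv StKer StTw StOrd StOrd2 StPr StFour rho Eh yk lk
  CM wp Xf EN StOrth cfY wj ηf psi cmain Gp Wn)

/-- The coefficients of `L(E, s)` outside the bad primes. -/
class Crv where
  /-- the bad modulus: the bad primes are the primes dividing it -/
  bd : ℕ
  bd_ne : bd ≠ 0
  two_dvd : 2 ∣ bd
  /-- the coefficients; `0` unless `(n, bd) = 1` -/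
  c : ℕ → ℤ
  c_one : c 1 = 1
  c_bad : ∀ n : ℕ, ¬ n.Coprime bd → c n = 0
  c_mul : ∀ m n : ℕ, m.Coprime n → c (m * n) = c m * c n
  c_hecke : ∀ p k : ℕ, p.Prime → ¬ p ∣ bd →
    c (p ^ (k + 2)) = c p * c (p ^ (k + 1)) - p * c (p ^ k)
  c_bound : ∀ n : ℕ, |(c n : ℝ)| ≤ P004.dv n * √(n : ℝ)

variable [Crv]

/-- the bad modulus -/
def bd : ℕ := Crv.bd

/-- The `n`-th coefficient (outside the bad primes). -/
def ca (n : ℕ) : ℤ := Crv.c n

/-- normalised coefficient -/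
noncomputable def lam (n : ℕ) : ℝ := (ca n : ℝ) / √(n : ℝ)

/-- the theta series of the twist by `m` -/
noncomputable def theta (m : ℤ) (u : ℝ) : ℝ :=
  4 * ∑' n : ℕ, (ca n : ℝ) * chi m n * Real.exp (-π * n * u)

/-- the square norm of `theta m`, `m : ℤ` -/
noncomputable def Jz (m : ℤ) : ℝ≥0∞ :=
  ∫⁻ u in Ioi (0 : ℝ), ENNReal.ofReal (theta m u ^ 2 * u)

/-- both signs together -/
noncomputable def Jm (m : ℕ) : ℝ≥0∞ := Jz m + Jz (-m)

open scoped Classical in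
/-- the squarefree integers of either sign with `|m| ≤ X` -/
noncomputable def sqZ (X : ℕ) : Finset ℤ := (Finset.Icc (-(X : ℤ)) X).filter Squarefree

/-- the sum of `Jm m` over squarefree `m ≤ X` -/
noncomputable def sumJ (X : ℕ) : ℝ≥0∞ := ∑ m ∈ sqf X, Jm m

/-- `∑ a_n (m/n) n^{-θ+iv} e^{-π n u}` -/
noncomputable def Bf (θ v : ℝ) (m : ℤ) (u : ℝ) : ℂ :=
  ∑' n : ℕ, (((ca n : ℝ) * chi m n * Real.exp (-π * n * u) : ℝ) : ℂ) *
    (n : ℂ) ^ (-(θ : ℂ) + v * Complex.I)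

/-- the same sum restricted to squarefree `n` coprime to `R` -/
noncomputable def Tf (θ v : ℝ) (R : ℕ) (m : ℤ) (u : ℝ) : ℂ :=
  ∑' n : ℕ, if Squarefree n ∧ n.Coprime R then
    (((ca n : ℝ) * chi m n * Real.exp (-π * n * u) : ℝ) : ℂ) *
      (n : ℂ) ^ (-(θ : ℂ) + v * Complex.I) else 0

/-- `∑ a_n (h/n) e^{-π n u}` over squarefree `n` coprime to `r` -/
noncomputable def Uf (h : ℤ) (r : ℕ) (u : ℝ) : ℝ :=
  ∑' n : ℕ, if Squarefree n ∧ n.Coprime r then
    (ca n : ℝ) * chi h n * Real.exp (-π * n * u) else 0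

/-- the summand of `Aj`: `t = (g, m₁, m₂)` -/
noncomputable def AjTerm (H : ℝ) (r : ℕ) (j : ℤ) (u : ℝ) (t : ℕ × ℕ × ℕ) : ℝ :=
  if Squarefree (t.1 * t.2.1 * t.2.2) ∧ (t.1 * t.2.1 * t.2.2).Coprime r then
    (ca t.1 : ℝ) ^ 2 * (lam t.2.1 * lam t.2.2) * chi j (t.2.1 * t.2.2) *
      (∑ d ∈ t.1.divisors, if (d : ℤ) ∣ j then
        (ArithmeticFunction.moebius d : ℝ) / d *
          Gk (|(j : ℝ)| * H / ((d : ℝ) ^ 2 * (t.2.1 * t.2.2))) else 0) *
      Real.exp (-π * t.1 * u * (t.2.1 + t.2.2))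
  else 0

/-- the `j`-th term of the dual sum -/
noncomputable def Aj (H : ℝ) (r : ℕ) (j : ℤ) (u : ℝ) : ℝ :=
  ∑' t : ℕ × ℕ × ℕ, AjTerm H r j u t

end P004G
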