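import Vale.Agent.P004G.Cm
import Mathlib.AlgebraicGeometry.EllipticCurve.LFunction
import Mathlib.NumberTheory.Padics.HeightOneSpectrum

/-!
# P004G: Mathlib's `L`-function of an elliptic curve (frozen statements)
-/

open WeierstrassCurve IsDedekindDomain NumberField Polynomial

namespace P004G
namespace ML

/-- `y² = x³ + a x + b` over `ℚ` -/
noncomputable def Ec (a b : ℤ) : WeierstrassCurve ℚ := ⟨0, 0, 0, a, b⟩

/-- the coefficients of Mathlib's `L`-function of `y² = x³ + a x + b` -/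
noncomputable def LA (a b : ℤ) (n : ℕ) : ℤ := (Ec a b).LFunction n

/-- `p` minus the number of affine points of `y² = x³ + a x + b` over `F_p` -/
noncomputable def tr (a b : ℤ) (p : ℕ) : ℤ :=
  p - Nat.card {q : ZMod p × ZMod p // q.2 ^ 2 = q.1 ^ 3 + (a : ZMod p) * q.1 + (b : ZMod p)}

/-- the number of affine points of a Weierstrass curve -/
noncomputable def affCard {F : Type} [Field F] (W : WeierstrassCurve F) : ℕ :=
  Nat.card {q : F × F // q.2 ^ 2 + W.a₁ * q.1 * q.2 + W.a₃ * q.2 =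
    q.1 ^ 3 + W.a₂ * q.1 ^ 2 + W.a₄ * q.1 + W.a₆}

/-- the place `p` of `ℚ` -/
noncomputable def pl (p : ℕ) (hp : p.Prime) : HeightOneSpectrum (𝓞 ℚ) :=
  (Rat.HeightOneSpectrum.primesEquiv (R := 𝓞 ℚ)).symm ⟨p, hp⟩

/-- Mathlib's local polynomial of `y² = x³ + a x + b` at `p` -/
noncomputable def locP (a b : ℤ) (p : ℕ) (hp : p.Prime) : ℤ[X] :=
  ((Ec a b).baseChange ((pl p hp).adicCompletion ℚ)).localPolynomial
    ((pl p hp).adicCompletionIntegers ℚ)

/-- `R` is like `ℤ_p` -/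
structure Loc (p : ℕ) (R : Type) [CommRing R] [IsDomain R] [IsDiscreteValuationRing R] :
    Prop where
  prime : p.Prime
  charZero : CharZero R
  unif : Irreducible (p : R)
  card : Nat.card (IsLocalRing.ResidueField R) = p

/-- Module ML1a : good reduction. -/
def StLocGood : Prop :=
  ∀ (p : ℕ) (R : Type) [CommRing R] [IsDomain R] [IsDiscreteValuationRing R] (K : Type) [Field K]
    [Algebra R K] [IsFractionRing R K] (_ : Loc p R) (W : WeierstrassCurve K)
    (C : VariableChange K) (W₁ : WeierstrassCurve R), C • W = W₁.map (algebraMap R K) →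
    IsUnit W₁.Δ → W.localPolynomial R =
      1 - Polynomial.C ((p : ℤ) - affCard (W₁.map (IsLocalRing.residue R))) * X +
        Polynomial.C (p : ℤ) * X ^ 2

/-- Module ML1b : additive reduction. -/
def StLocAdd : Prop :=
  ∀ (p : ℕ) (R : Type) [CommRing R] [IsDomain R] [IsDiscreteValuationRing R] (K : Type) [Field K]
    [Algebra R K] [IsFractionRing R K] (_ : Loc p R) (W : WeierstrassCurve K),
    (∀ (C : VariableChange K) (W₁ : WeierstrassCurve R), C • W = W₁.map (algebraMap R K) →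
      ¬ IsUnit W₁.Δ ∧ ¬ IsUnit W₁.c₄) → W.localPolynomial R = 1

/-- Module ML1c : the possible shapes. -/
def StLocShape : Prop :=
  ∀ (p : ℕ) (R : Type) [CommRing R] [IsDomain R] [IsDiscreteValuationRing R] (K : Type) [Field K]
    [Algebra R K] [IsFractionRing R K] (_ : Loc p R) (W : WeierstrassCurve K),
    (∃ t : ℤ, W.localPolynomial R = 1 - Polynomial.C t * X + Polynomial.C (p : ℤ) * X ^ 2) ∨
    W.localPolynomial R = 1 - X ∨ W.localPolynomial R = 1 + X ∨ W.localPolynomial R = 1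

/-- Module ML2a : the completions of `ℚ`. -/
def StLoc : Prop := ∀ (p : ℕ) (hp : p.Prime), Loc p ((pl p hp).adicCompletionIntegers ℚ)

/-- Module ML2b : the Euler product of `LA`. -/
def StEul : Prop := ∀ a b : ℤ, LA a b 0 = 0 ∧ LA a b 1 = 1 ∧
  (∀ m n : ℕ, m.Coprime n → LA a b (m * n) = LA a b m * LA a b n) ∧
  ∀ (p : ℕ) (hp : p.Prime),
    (locP a b p hp = 1 → TrivAt (LA a b) p) ∧
    (locP a b p hp = 1 - X → ∀ k : ℕ, LA a b (p ^ k) = 1) ∧
    (locP a b p hp = 1 + X → ∀ k : ℕ, LA a b (p ^ k) = (-1) ^ k) ∧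
    (∀ t : ℤ, locP a b p hp = 1 - Polynomial.C t * X + Polynomial.C (p : ℤ) * X ^ 2 →
      LA a b p = t ∧ GoodAt (LA a b) p)

/-- Module MLQ : identification for `y² = x³ - B x`. -/
def StMLQ : Prop := ∀ B : ℤ, B ≠ 0 → ∀ A : ℕ → ℤ, CoefQ B A → ∀ n, A n = LA (-B) 0 n

/-- Module MLS : identification for `y² = x³ + B`. -/
def StMLS : Prop := ∀ B : ℤ, B ≠ 0 → ∀ A : ℕ → ℤ, CoefS B A → ∀ n, A n = LA 0 B n

/-- `D = 1` or a fundamental discriminant -/
def Fund1 (D : ℤ) : Prop := D = 1 ∨ P004.IsFund D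

/-- the bad modulus of `y² = x³ + a x + b` -/
def bdE (a b : ℤ) : ℕ := 2 * (4 * a ^ 3 + 27 * b ^ 2).natAbs

/-- Module MLG : the twists `D y² = x³ + a x + b`, i.e. `y² = x³ + a D² x + b D³`. -/
def StMLG : Prop := ∀ a b : ℤ, 4 * a ^ 3 + 27 * b ^ 2 ≠ 0 → ∀ D : ℤ, Fund1 D →
  ((∀ p : ℕ, p.Prime → (LA (a * D ^ 2) (b * D ^ 3) p) ^ 2 ≤ 4 * p) →
    LD (LA (a * D ^ 2) (b * D ^ 3))) ∧
  (∀ p : ℕ, p.Prime → ¬ p ∣ bdE a b → GoodAt (LA a b) p) ∧
  (∀ n : ℕ, n.Coprime (bdE a b) → LA (a * D ^ 2) (b * D ^ 3) n = LA a b n * jacobiSym D n)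

end ML
end P004G
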